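import Mathlib
import Crest.Prelude.Def_RandomSAT

/-!
Row 153 (S0217, S0218): common definitions.  DO NOT EDIT (owner: helper18).

`EL S M φ` is the expectation of `φ` over a list of `M` independent uniform elements of the finset `S`.
`life Σ l` counts the `m ∈ [0, l.length]` such that some assignment of `Σ` satisfies the first `m`
clauses of `l`.
-/

set_option autoImplicit false

namespace Crest.Agent.R153

open Crest.ProbabilityR.RandomSAT Finset

/-- average over a finset (`0` for the empty finset) -/
noncomputable def av {α : Type} (S : Finset α) (f : α → ℝ) : ℝ := (∑ a ∈ S, f a) / S.card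

/-- expectation over lists of `M` independent uniform elements of `S` -/
noncomputable def EL {α : Type} (S : Finset α) : ℕ → (List α → ℝ) → ℝ
  | 0, φ => φ []
  | M + 1, φ => av S fun c => EL S M fun l => φ (c :: l)

abbrev Asg (n : ℕ) : Type := Fin n → Bool

def sat {k n : ℕ} (c : Clause k n) : Set (Asg n) := {σ | ClauseSat σ c}

/-- the event `σ v = b` -/
def lit {n : ℕ} (v : Fin n) (b : Bool) : Set (Asg n) := {σ | σ v = b}

/-- the clause `c` with its literal on the variable `v` deleted -/
def satBut {k n : ℕ} (v : Fin n) (c : Clause k n) : Set (Asg n) :=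
  {σ | ∃ i, c.1.1 i ≠ v ∧ σ (c.1.1 i) = c.2 i}

open Classical in
/-- number of `m ∈ [0, l.length]` such that `S ∩ sat l₁ ∩ ⋯ ∩ sat l_m` is nonempty -/
noncomputable def life {k n : ℕ} : Set (Asg n) → List (Clause k n) → ℕ
  | S, [] => if S.Nonempty then 1 else 0
  | S, c :: l => if S.Nonempty then life (S ∩ sat c) l + 1 else 0

/-- the clauses that use no variable of `X` -/
def avoid (k : ℕ) {n : ℕ} (X : Finset (Fin n)) : Finset (Clause k n) :=
  univ.filter fun c => ∀ i, c.1.1 i ∉ X

/-- membership in `S` depends only on the coordinates in `Y` -/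
def DepOn {n : ℕ} (S : Set (Asg n)) (Y : Finset (Fin n)) : Prop :=
  ∀ σ τ : Asg n, (∀ i ∈ Y, σ i = τ i) → σ ∈ S → τ ∈ S

/-- `ω(a,b) = Σ_{b ≤ j < a} (a - j) e^{λ j}` -/
noncomputable def om (lam : ℝ) (a b : ℕ) : ℝ :=
  ∑ j ∈ Finset.Ico b a, ((a : ℝ) - j) * Real.exp (lam * j)

noncomputable def Psi {k n : ℕ} (lam : ℝ) (C : Finset (Clause k n)) (S : Set (Asg n)) (M : ℕ) : ℝ :=
  EL C M fun l => Real.exp (lam * life S l)

noncomputable def Wt {k n : ℕ} (lam : ℝ) (C : Finset (Clause k n)) (S : Set (Asg n)) (M : ℕ)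
    (A : Set (Asg n)) : ℝ :=
  EL C M fun l => om lam (life S l) (life (S ∩ A) l)

open Classical in
/-- minimal number of entries `c` of the list whose event `s c` fails -/
noncomputable def mv {α : Type} {n : ℕ} (s : α → Set (Asg n)) (l : List α) : ℕ :=
  (univ : Finset (Asg n)).inf' univ_nonempty fun σ => l.countP fun c => decide (σ ∉ s c)

/-- 3-clauses whose variables are chosen with replacement -/
abbrev WC (n : ℕ) : Type := (Fin 3 → Fin n) × (Fin 3 → Bool)

def wsat {n : ℕ} (c : WC n) : Set (Asg n) := {σ | ∃ i, σ (c.1 i) = c.2 i}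

/-- expected minimal number of violated clauses, `m` clauses with replacement of variables -/
noncomputable def EV (n m : ℕ) : ℝ := EL (univ : Finset (WC n)) m fun l => (mv wsat l : ℝ)

/-- expected minimal number of violated clauses, `m` proper 3-clauses -/
noncomputable def EVd (n m : ℕ) : ℝ :=
  EL (univ : Finset (Clause 3 n)) m fun l => (mv sat l : ℝ)

/-! ### elementary facts -/

section
variable {α : Type}

theorem av_nonneg {S : Finset α} {f : α → ℝ} (h : ∀ a ∈ S, 0 ≤ f a) : 0 ≤ av S f :=
  div_nonneg (sum_nonneg h) (Nat.cast_nonneg _)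

theorem av_mono {S : Finset α} {f g : α → ℝ} (h : ∀ a ∈ S, f a ≤ g a) : av S f ≤ av S g :=
  div_le_div_of_nonneg_right (sum_le_sum h) (Nat.cast_nonneg _)

theorem av_congr {S : Finset α} {f g : α → ℝ} (h : ∀ a ∈ S, f a = g a) : av S f = av S g := by
  unfold av; rw [sum_congr rfl h]

theorem av_add (S : Finset α) (f g : α → ℝ) : av S (fun a => f a + g a) = av S f + av S g := by
  unfold av; rw [sum_add_distrib, add_div]

theorem av_mul_left (S : Finset α) (c : ℝ) (f : α → ℝ) : av S (fun a => c * f a) = c * av S f := by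
  unfold av; rw [← mul_sum, mul_div_assoc]

theorem av_const {S : Finset α} (hS : S.Nonempty) (c : ℝ) : av S (fun _ => c) = c := by
  unfold av
  have : (S.card : ℝ) ≠ 0 := by exact_mod_cast hS.card_pos.ne'
  rw [sum_const, nsmul_eq_mul]; field_simp

theorem av_sum {β : Type} (S : Finset α) (T : Finset β) (f : β → α → ℝ) :
    av S (fun a => ∑ b ∈ T, f b a) = ∑ b ∈ T, av S (f b) := by
  unfold av; rw [sum_comm, sum_div]

theorem av_comm {β : Type} (S : Finset α) (T : Finset β) (f : α → β → ℝ) :
    av S (fun a => av T (f a)) = av T (fun b => av S (fun a => f a b)) := by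
  unfold av
  simp only [div_eq_mul_inv, ← sum_mul]
  rw [sum_comm]; ring

/-- monotonicity; only lists of length `M` with entries in `S` matter -/
theorem EL_mono' (S : Finset α) : ∀ (M : ℕ) {φ ψ : List α → ℝ},
    (∀ l : List α, l.length = M → (∀ c ∈ l, c ∈ S) → φ l ≤ ψ l) → EL S M φ ≤ EL S M ψ
  | 0, _, _, h => h [] rfl (by simp)
  | M + 1, _, _, h => av_mono fun c hc => EL_mono' S M fun l hl hm =>
      h (c :: l) (by simp [hl]) (by
        intro d hd
        rcases List.mem_cons.1 hd with rfl | hd
        · exact hc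
        · exact hm d hd)

theorem EL_mono (S : Finset α) (M : ℕ) {φ ψ : List α → ℝ} (h : ∀ l, φ l ≤ ψ l) :
    EL S M φ ≤ EL S M ψ := EL_mono' S M fun l _ _ => h l

theorem EL_congr (S : Finset α) (M : ℕ) {φ ψ : List α → ℝ}
    (h : ∀ l : List α, l.length = M → (∀ c ∈ l, c ∈ S) → φ l = ψ l) : EL S M φ = EL S M ψ :=
  le_antisymm (EL_mono' S M fun l a b => (h l a b).le) (EL_mono' S M fun l a b => (h l a b).ge)

theorem EL_add (S : Finset α) : ∀ (M : ℕ) (φ ψ : List α → ℝ),
    EL S M (fun l => φ l + ψ l) = EL S M φ + EL S M ψ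
  | 0, _, _ => rfl
  | M + 1, φ, ψ => by
      simp only [EL]
      rw [← av_add]
      exact av_congr fun c _ => EL_add S M _ _

theorem EL_mul_left (S : Finset α) : ∀ (M : ℕ) (c : ℝ) (φ : List α → ℝ),
    EL S M (fun l => c * φ l) = c * EL S M φ
  | 0, _, _ => rfl
  | M + 1, a, φ => by
      simp only [EL]
      rw [← av_mul_left]
      exact av_congr fun c _ => EL_mul_left S M _ _

theorem EL_const {S : Finset α} (hS : S.Nonempty) : ∀ (M : ℕ) (c : ℝ), EL S M (fun _ => c) = c
  | 0, _ => rfl
  | M + 1, c => by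
      simp only [EL]
      rw [av_congr fun _ _ => EL_const hS M c, av_const hS]

theorem EL_zero (S : Finset α) (M : ℕ) : EL S M (fun _ => 0) = 0 := by
  have := EL_mul_left S M 0 (fun _ => 0)
  simpa using this

theorem EL_nonneg (S : Finset α) (M : ℕ) {φ : List α → ℝ} (h : ∀ l, 0 ≤ φ l) : 0 ≤ EL S M φ := by
  have := EL_mono S M (φ := fun _ => 0) h
  rwa [EL_zero] at this

theorem EL_sum {β : Type} (S : Finset α) (M : ℕ) (T : Finset β) (f : β → List α → ℝ) :
    EL S M (fun l => ∑ b ∈ T, f b l) = ∑ b ∈ T, EL S M (f b) := by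
  classical
  induction T using Finset.induction_on with
  | empty => simpa using EL_zero S M
  | insert b T hb ih => simp only [sum_insert hb]; rw [EL_add, ih]

theorem EL_av {β : Type} (S : Finset α) (M : ℕ) (T : Finset β) (f : β → List α → ℝ) :
    EL S M (fun l => av T (fun b => f b l)) = av T (fun b => EL S M (f b)) := by
  unfold av
  simp only [div_eq_inv_mul]
  rw [EL_mul_left, EL_sum]

/-- the `i`-th entry is uniform and independent of the others -/
theorem EL_insertIdx (S : Finset α) : ∀ (M i : ℕ) (_ : i ≤ M) (φ : List α → ℝ),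
    EL S (M + 1) φ = av S fun c => EL S M fun l => φ (l.insertIdx i c)
  | _, 0, _, φ => by simp [EL]
  | 0, i + 1, h, _ => by omega
  | M + 1, i + 1, h, φ => by
      have h1 : EL S (M + 1 + 1) φ = av S fun d => EL S (M + 1) fun l => φ (d :: l) := rfl
      rw [h1, av_congr fun d _ => EL_insertIdx S M i (by omega) _, av_comm]
      refine av_congr fun c _ => ?_
      simp [EL]

end

theorem om_nonneg (lam : ℝ) (a b : ℕ) : 0 ≤ om lam a b :=
  sum_nonneg fun j hj => mul_nonneg (by
    have := (mem_Ico.1 hj).2
    have : (j : ℝ) ≤ a := by exact_mod_cast this.le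
    linarith) (Real.exp_pos _).le

theorem life_mono {k n : ℕ} : ∀ (l : List (Clause k n)) {S T : Set (Asg n)}, S ⊆ T →
    life S l ≤ life T l
  | [], S, T, h => by
      simp only [life]
      by_cases hS : S.Nonempty
      · simp [hS, hS.mono h]
      · simp [hS]
  | c :: l, S, T, h => by
      simp only [life]
      by_cases hS : S.Nonempty
      · simp only [hS, hS.mono h, if_true]
        exact Nat.succ_le_succ (life_mono l (Set.inter_subset_inter_left _ h))
      · simp [hS]

theorem life_le {k n : ℕ} : ∀ (l : List (Clause k n)) (S : Set (Asg n)), life S l ≤ l.length + 1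
  | [], S => by simp only [life]; split_ifs <;> simp
  | c :: l, S => by
      simp only [life]
      split_ifs
      · have := life_le l (S ∩ sat c); simp; omega
      · simp

end Crest.Agent.R153
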