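import Crest.Agent.R153.Basic
import Crest.Agent.Lib.RatPrimrec.Basic

/-! Computability, part A (task R153 CompA). -/

set_option autoImplicit false

namespace Crest.Agent.R153

namespace CompA

/-- all lists of length `m` with entries in `L` -/
def allL {β : Type} (L : List β) (m : ℕ) : List (List β) :=
  (fun T : List (List β) => L.flatMap fun c => T.map fun l => c :: l)^[m] [[]]

theorem allL_zero {β : Type} (L : List β) : allL L 0 = [[]] := rfl

theorem allL_succ {β : Type} (L : List β) (m : ℕ) :
    allL L (m + 1) = L.flatMap fun c => (allL L m).map fun l => c :: l := by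
  unfold allL
  rw [Function.iterate_succ_apply']

theorem primrec_allL {α β : Type} [Primcodable α] [Primcodable β] {L : α → List β} {m : α → ℕ}
    (hL : Primrec L) (hm : Primrec m) : Primrec fun a => allL (L a) (m a) := by
  unfold allL
  refine Primrec.nat_iterate (h := fun a (T : List (List β)) =>
    (L a).flatMap fun c => T.map fun l => c :: l) hm (Primrec.const _) ?_
  refine Primrec.list_flatMap (f := fun p : α × List (List β) => L p.1)
    (g := fun p c => p.2.map fun l => c :: l) (hL.comp Primrec.fst) ?_
  refine Primrec.list_map (f := fun q : (α × List (List β)) × β => q.1.2)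
    (g := fun q l => q.2 :: l) (Primrec.snd.comp Primrec.fst) ?_
  exact Primrec.list_cons.comp (Primrec.snd.comp Primrec.fst) Primrec.snd

theorem mem_allL {β : Type} (L : List β) : ∀ (m : ℕ) (l : List β),
    l ∈ allL L m ↔ l.length = m ∧ ∀ x ∈ l, x ∈ L
  | 0, l => by
      rw [allL_zero]
      constructor
      · intro h
        have : l = [] := by simpa using h
        subst this; simp
      · rintro ⟨h, -⟩
        simpa using h
  | m + 1, l => by
      rw [allL_succ]
      simp only [List.mem_flatMap, List.mem_map]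
      constructor
      · rintro ⟨c, hc, t, ht, rfl⟩
        obtain ⟨h1, h2⟩ := (mem_allL L m t).1 ht
        refine ⟨by simp [h1], fun x hx => ?_⟩
        rcases List.mem_cons.1 hx with rfl | hx
        · exact hc
        · exact h2 x hx
      · rintro ⟨h1, h2⟩
        cases l with
        | nil => simp at h1
        | cons c t =>
          exact ⟨c, h2 c (by simp), t, (mem_allL L m t).2
            ⟨by simpa using h1, fun x hx => h2 x (by simp [hx])⟩, rfl⟩

theorem sum_map_flatMap {β γ : Type} (L : List β) (g : β → List γ) (φ : γ → ℝ) :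
    ((L.flatMap g).map φ).sum = (L.map fun c => ((g c).map φ).sum).sum := by
  induction L with
  | nil => simp
  | cons a L ih => simp [List.flatMap_cons, ih]

theorem sum_allL_succ {β : Type} (L : List β) (m : ℕ) (φ : List β → ℝ) :
    ((allL L (m + 1)).map φ).sum = (L.map fun c => ((allL L m).map fun l => φ (c :: l)).sum).sum := by
  rw [allL_succ, sum_map_flatMap]
  simp only [List.map_map]
  rfl

/-- sums over functions `Fin m → α` as sums over `allL` -/
theorem sum_fun_allL {α β : Type} [Fintype α] (e : α → β) (L : List β)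
    (h : ∀ f : β → ℝ, ∑ a, f (e a) = (L.map f).sum) : ∀ (m : ℕ) (φ : List β → ℝ),
    ∑ x : Fin m → α, φ (List.ofFn fun i => e (x i)) = ((allL L m).map φ).sum
  | 0, φ => by simp [allL_zero]
  | m + 1, φ => by
      rw [sum_allL_succ, ← h, ← (Fin.consEquiv fun _ : Fin (m + 1) => α).sum_comp,
        Fintype.sum_prod_type]
      refine Finset.sum_congr rfl fun a _ => ?_
      rw [← sum_fun_allL e L h m]
      refine Finset.sum_congr rfl fun x _ => ?_
      simp [List.ofFn_succ, Fin.consEquiv]

/-- `EL` as a sum over `allL` -/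
theorem EL_eq_allL {α β : Type} [Fintype α] (e : α → β) (L : List β)
    (h : ∀ f : β → ℝ, ∑ a, f (e a) = (L.map f).sum) : ∀ (m : ℕ) (φ : List β → ℝ),
    EL (Finset.univ : Finset α) m (fun l => φ (l.map e)) =
      ((allL L m).map φ).sum / (L.length : ℝ) ^ m
  | 0, φ => by simp [EL, allL_zero]
  | m + 1, φ => by
      have hc : ((Finset.univ : Finset α).card : ℝ) = L.length := by
        have := h fun _ => 1
        simpa using this
      simp only [EL, av, List.map_cons]
      rw [sum_allL_succ, ← h, hc, pow_succ, ← div_div, Finset.sum_div, Finset.sum_div,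
        Finset.sum_div]
      refine Finset.sum_congr rfl fun a _ => ?_
      rw [EL_eq_allL e L h m fun l => φ (e a :: l)]

/-- the literals on `n` variables -/
def lits (n : ℕ) : List (ℕ × Bool) := (List.range n).flatMap fun i => [(i, false), (i, true)]

theorem primrec_lits : Primrec lits := by
  unfold lits
  refine Primrec.list_flatMap (g := fun _ i => [(i, false), (i, true)]) Primrec.list_range ?_
  exact Primrec.list_cons.comp (Primrec.snd.pair (Primrec.const false))
    (Primrec.list_cons.comp (Primrec.snd.pair (Primrec.const true)) (Primrec.const []))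

theorem sum_lits (n : ℕ) (f : ℕ × Bool → ℝ) :
    ∑ a : Fin n × Bool, f (a.1.1, a.2) = ((lits n).map f).sum := by
  unfold lits
  rw [sum_map_flatMap, Fintype.sum_prod_type,
    Fin.sum_univ_eq_sum_range (fun i => ∑ b : Bool, f (i, b)) n]
  induction n with
  | zero => simp
  | succ n ih => rw [Finset.sum_range_succ, ih, List.range_succ]; simp [add_comm]

/-- code of a clause -/
def enc {n : ℕ} (c : WC n) : List (ℕ × Bool) := List.ofFn fun i => ((c.1 i).1, c.2 i)

theorem sum_enc (n : ℕ) (f : List (ℕ × Bool) → ℝ) :
    ∑ c : WC n, f (enc c) = ((allL (lits n) 3).map f).sum := by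
  rw [← sum_fun_allL (fun a : Fin n × Bool => (a.1.1, a.2)) (lits n) (sum_lits n) 3 f,
    ← (Equiv.arrowProdEquivProdArrow (Fin 3) (fun _ => Fin n) (fun _ => Bool)).sum_comp]
  rfl

/-- the coded clause `c` is satisfied by the coded assignment `σ` -/
def satC (σ : List Bool) (c : List (ℕ × Bool)) : Bool :=
  c.foldr (fun p b => (decide (σ.getD p.1 false = p.2)) || b) false

theorem satC_iff (σ : List Bool) (c : List (ℕ × Bool)) :
    satC σ c = true ↔ ∃ p ∈ c, σ.getD p.1 false = p.2 := by
  induction c with
  | nil => simp [satC]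
  | cons p c ih =>
    unfold satC at ih ⊢
    simp only [List.foldr_cons, Bool.or_eq_true, decide_eq_true_eq, ih, List.mem_cons,
      exists_eq_or_imp]

theorem primrec_satC : Primrec₂ satC := by
  unfold satC
  refine Primrec.list_foldr (f := fun q : List Bool × List (ℕ × Bool) => q.2) (g := fun _ => false)
    (h := fun q pb => (decide (q.1.getD pb.1.1 false = pb.1.2)) || pb.2) Primrec.snd
    (Primrec.const _) ?_
  refine Primrec.or.comp ?_ (Primrec.snd.comp Primrec.snd)
  refine (Primrec.eq.comp ?_ ?_).decide
  · exact (Primrec.list_getD false).comp (Primrec.fst.comp Primrec.fst)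
      (Primrec.fst.comp (Primrec.fst.comp Primrec.snd))
  · exact Primrec.snd.comp (Primrec.fst.comp Primrec.snd)

/-- number of violated clauses -/
def cnt (σ : List Bool) (F : List (List (ℕ × Bool))) : ℕ :=
  F.foldr (fun c k => cond (satC σ c) k (k + 1)) 0

theorem cnt_eq (σ : List Bool) (F : List (List (ℕ × Bool))) :
    cnt σ F = F.countP fun c => !satC σ c := by
  induction F with
  | nil => rfl
  | cons c F ih =>
    unfold cnt at ih ⊢
    rw [List.foldr_cons, ih, List.countP_cons]
    cases satC σ c <;> simp

theorem primrec_cnt : Primrec₂ cnt := by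
  unfold cnt
  refine Primrec.list_foldr (f := fun q : List Bool × List (List (ℕ × Bool)) => q.2)
    (g := fun _ => 0) (h := fun q ck => cond (satC q.1 ck.1) ck.2 (ck.2 + 1)) Primrec.snd
    (Primrec.const _) ?_
  exact Primrec.cond (primrec_satC.comp (Primrec.fst.comp Primrec.fst) (Primrec.fst.comp Primrec.snd))
    (Primrec.snd.comp Primrec.snd) (Primrec.succ.comp (Primrec.snd.comp Primrec.snd))

/-- the minimal number of violated clauses -/
def mn (n : ℕ) (F : List (List (ℕ × Bool))) : ℕ :=
  (allL [false, true] n).foldr (fun σ k => min (cnt σ F) k) F.length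

theorem primrec_mn : Primrec₂ mn := by
  unfold mn
  refine Primrec.list_foldr (f := fun q : ℕ × List (List (ℕ × Bool)) => allL [false, true] q.1)
    (g := fun q => q.2.length) (h := fun q σk => min (cnt σk.1 q.2) σk.2)
    (primrec_allL (Primrec.const _) Primrec.fst) (Primrec.list_length.comp Primrec.snd) ?_
  exact Primrec.nat_min.comp
    (primrec_cnt.comp (Primrec.fst.comp Primrec.snd) (Primrec.snd.comp Primrec.fst))
    (Primrec.snd.comp Primrec.snd)

theorem le_foldr_min {β : Type} (A : List β) (f : β → ℕ) (b k : ℕ) :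
    k ≤ A.foldr (fun σ k => min (f σ) k) b ↔ k ≤ b ∧ ∀ σ ∈ A, k ≤ f σ := by
  induction A with
  | nil => simp
  | cons a A ih =>
    simp only [List.foldr_cons, le_min_iff, ih, List.mem_cons, forall_eq_or_imp]
    tauto

open Classical in
theorem cnt_ofFn {n : ℕ} (σ : Asg n) (l : List (WC n)) :
    cnt (List.ofFn σ) (l.map enc) = l.countP fun c => decide (σ ∉ wsat c) := by
  rw [cnt_eq, List.countP_map]
  refine List.countP_congr fun c _ => ?_
  have : satC (List.ofFn σ) (enc c) = true ↔ σ ∈ wsat c := by
    rw [satC_iff]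
    unfold enc wsat
    simp only [List.mem_ofFn, Set.mem_ofPred_eq]
    constructor
    · rintro ⟨p, ⟨i, rfl⟩, h⟩
      refine ⟨i, ?_⟩
      simpa [List.getD_eq_getElem?_getD] using h
    · rintro ⟨i, h⟩
      refine ⟨_, ⟨i, rfl⟩, ?_⟩
      simpa [List.getD_eq_getElem?_getD] using h
  simp [← this]

theorem mn_eq {n : ℕ} (l : List (WC n)) : mn n (l.map enc) = mv wsat l := by
  classical
  unfold mn mv
  refine eq_of_forall_le_iff fun k => ?_
  rw [le_foldr_min, Finset.le_inf'_iff]
  constructor
  · rintro ⟨-, h⟩ σ -
    have := h (List.ofFn σ) ((mem_allL _ _ _).2 ⟨by simp, fun x _ => by cases x <;> simp⟩)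
    rw [cnt_ofFn] at this
    convert this
  · intro h
    refine ⟨?_, fun σ hσ => ?_⟩
    · refine (h (fun _ => false) (Finset.mem_univ _)).trans ?_
      simpa using List.countP_le_length
    · obtain ⟨h1, -⟩ := (mem_allL _ _ _).1 hσ
      subst h1
      have := h σ.get (Finset.mem_univ _)
      have e := cnt_ofFn (n := σ.length) σ.get l
      rw [List.ofFn_get] at e
      rw [e]
      convert this

/-- the numerator -/
def num (n m : ℕ) : ℕ := (allL (allL (lits n) 3) m).foldr (fun F k => mn n F + k) 0

theorem primrec_num : Primrec₂ num := by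
  unfold num
  refine Primrec.list_foldr (f := fun q : ℕ × ℕ => allL (allL (lits q.1) 3) q.2)
    (g := fun _ => 0) (h := fun q Fk => mn q.1 Fk.1 + Fk.2)
    (primrec_allL (primrec_allL (primrec_lits.comp Primrec.fst) (Primrec.const _)) Primrec.snd)
    (Primrec.const _) ?_
  exact Primrec.nat_add.comp
    (primrec_mn.comp (Primrec.fst.comp Primrec.fst) (Primrec.fst.comp Primrec.snd))
    (Primrec.snd.comp Primrec.snd)

theorem cast_foldr_add {β : Type} (A : List β) (f : β → ℕ) :
    ((A.foldr (fun F k => f F + k) 0 : ℕ) : ℝ) = (A.map fun F => (f F : ℝ)).sum := by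
  induction A with
  | nil => simp
  | cons a A ih => simp [ih]

end CompA

open CompA in
/-- `EV n m` is a computable rational.  Code a clause of `WC n` by a list/number (three variables
`< n`, three bits), an assignment by a number `< 2^n` (`Nat.testBit`), and enumerate all lists of
length `m` of codes by iterating `L ↦ L.flatMap (fun l => codes.map (· :: l))`;
`EV n m = (Σ over all lists of the minimum) / (8 n³)^m`.  Use `Primrec.list_map`, `list_flatMap`,
`list_foldr`, `nat_rec`, `Primrec.list_range`, and `Crest.Agent.Lib.RatPrimrec` for `ℚ`. -/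
theorem EV_computable : ∃ g : ℕ → ℕ → ℚ, Computable₂ g ∧
    ∀ n m : ℕ, 0 < n → (g n m : ℝ) = EV n m := by
  refine ⟨fun n m => (num n m : ℚ) / (((allL (lits n) 3).length ^ m : ℕ) : ℚ), ?_, fun n m _ => ?_⟩
  · refine Primrec₂.to_comp ?_
    refine Lib.RatPrimrec.rat_div.comp (Lib.RatPrimrec.rat_natCast.comp primrec_num)
      (Lib.RatPrimrec.rat_natCast.comp (Lib.RatPrimrec.nat_pow.comp
        (Primrec.list_length.comp
          (primrec_allL (primrec_lits.comp Primrec.fst) (Primrec.const _))) Primrec.snd))
  · unfold EV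
    have := EL_eq_allL (enc (n := n)) (allL (lits n) 3) (sum_enc n) m fun F => (mn n F : ℝ)
    simp only [mn_eq] at this
    rw [this]
    push_cast
    unfold num
    rw [cast_foldr_add]

/-- Search for `(j, w, w')` with `(j = 0 ∨ A r j w) ∧ B r (j+1) w'` (`Nat.rfind` on a code, or
`Nat.find` + `Computable` via `Partrec.rfind`/`Partrec.of_eq_tot`) and output `j`.  Existence: `A r j`
fails for large `j`; take the largest `j` with `j = 0 ∨ ∃ w, A r j w`; then `B r (j+1)` holds. -/
theorem computable_of_certs (α : ℝ) (hα : 0 ≤ α) (A B : ℕ × ℕ × ℕ → Bool)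
    (hA : Computable A) (hB : Computable B)
    (sA : ∀ r j w, A (r, j, w) = true → (j : ℝ) / 2 ^ r ≤ α + 1 / 2 ^ r)
    (sB : ∀ r j w, B (r, j, w) = true → α ≤ (j : ℝ) / 2 ^ r)
    (c : ∀ r j, (∃ w, A (r, j, w) = true) ∨ ∃ w, B (r, j, w) = true) :
    ∃ f : ℕ → ℕ, Computable f ∧ ∀ r : ℕ, |(f r : ℝ) / 2 ^ r - α| ≤ 1 / 2 ^ r := by
  classical
  -- the test
  let P : ℕ → ℕ → Bool := fun r k =>
    (decide (k.unpair.1 = 0) || A (r, k.unpair.1, k.unpair.2.unpair.1)) &&
      B (r, k.unpair.1 + 1, k.unpair.2.unpair.2)
  have hP : Computable₂ P := by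
    have h1 : Computable fun q : ℕ × ℕ => q.2.unpair.1 :=
      (Primrec.fst.comp (Primrec.unpair.comp Primrec.snd)).to_comp
    have h2 : Computable fun q : ℕ × ℕ => q.2.unpair.2.unpair.1 :=
      (Primrec.fst.comp (Primrec.unpair.comp (Primrec.snd.comp
        (Primrec.unpair.comp Primrec.snd)))).to_comp
    have h3 : Computable fun q : ℕ × ℕ => q.2.unpair.2.unpair.2 :=
      (Primrec.snd.comp (Primrec.unpair.comp (Primrec.snd.comp
        (Primrec.unpair.comp Primrec.snd)))).to_comp
    have h4 : Computable fun q : ℕ × ℕ => decide (q.2.unpair.1 = 0) :=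
      (Primrec.eq.comp (Primrec.fst.comp (Primrec.unpair.comp Primrec.snd))
        (Primrec.const 0)).decide.to_comp
    exact (Primrec.and.to_comp).comp
      ((Primrec.or.to_comp).comp h4 (hA.comp (Computable.fst.pair (h1.pair h2))))
      (hB.comp (Computable.fst.pair ((Computable.succ.comp h1).pair h3)))
  have hex : ∀ r, ∃ k, P r k = true := by
    intro r
    by_contra hno
    push Not at hno
    have hall : ∀ j : ℕ, j = 0 ∨ ∃ w, A (r, j, w) = true := by
      intro j
      induction j with
      | zero => exact Or.inl rfl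
      | succ j ih =>
        rcases c r (j + 1) with h | ⟨w', hw'⟩
        · exact Or.inr h
        · exfalso
          rcases ih with h0 | ⟨w, hw⟩
          · exact hno (Nat.pair j (Nat.pair 0 w')) (by simp [P, h0, ← hw'])
          · exact hno (Nat.pair j (Nat.pair w w')) (by simp [P, hw, hw'])
    have h2 : (0 : ℝ) < 2 ^ r := by positivity
    obtain ⟨j, hj⟩ := exists_nat_gt ((α + 1 / 2 ^ r) * 2 ^ r)
    rcases hall j with h0 | ⟨w, hw⟩
    · subst h0
      have : 0 < (α + 1 / 2 ^ r) * 2 ^ r := by positivity
      simp only [Nat.cast_zero] at hj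
      linarith
    · have := sA r j w hw
      rw [div_le_iff₀ h2] at this
      linarith
  have hfind : Computable fun r => Nat.find (hex r) := by
    refine (Partrec.rfind (p := fun r k => (P r k : Part Bool)) hP.partrec₂).of_eq_tot fun r => ?_
    refine Nat.mem_rfind.2 ⟨?_, fun {m} hm => ?_⟩
    · simpa using Nat.find_spec (hex r)
    · simpa using Nat.find_min (hex r) hm
  refine ⟨fun r => (Nat.find (hex r)).unpair.1,
    ((Primrec.fst.comp Primrec.unpair).to_comp).comp hfind, fun r => ?_⟩
  have hs := Nat.find_spec (hex r)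
  change |(((Nat.find (hex r)).unpair.1 : ℕ) : ℝ) / 2 ^ r - α| ≤ 1 / 2 ^ r
  generalize Nat.find (hex r) = k at hs ⊢
  simp only [P, Bool.and_eq_true, Bool.or_eq_true, decide_eq_true_eq] at hs
  obtain ⟨h1, h2⟩ := hs
  have hb := sB _ _ _ h2
  push_cast at hb
  rw [add_div] at hb
  have h2 : (0 : ℝ) < 1 / 2 ^ r := by positivity
  rw [abs_le]
  constructor
  · linarith
  · rcases h1 with h0 | h1
    · simp only [h0, Nat.cast_zero, zero_div]
      linarith
    · have := sA _ _ _ h1
      linarith

end Crest.Agent.R153
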