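import Crest.Agent.R153.Basic

/-! Ground state energy `EV`: comparison of the two clause models, superadditivity
(task R153 Zero). -/

set_option autoImplicit false

namespace Crest.Agent.R153

open Crest.ProbabilityR.RandomSAT Finset

namespace ZeroT

open Classical in
/-- number of violated entries -/
noncomputable def cnt {α : Type} {n : ℕ} (s : α → Set (Asg n)) (σ : Asg n) (l : List α) : ℕ :=
  l.countP fun c => decide (σ ∉ s c)

theorem mv_le {α : Type} {n : ℕ} (s : α → Set (Asg n)) (l : List α) (σ : Asg n) :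
    mv s l ≤ cnt s σ l := by
  unfold mv cnt
  exact Finset.inf'_le _ (mem_univ σ)

theorem mv_ex {α : Type} {n : ℕ} (s : α → Set (Asg n)) (l : List α) :
    ∃ σ, mv s l = cnt s σ l := by
  unfold mv cnt
  obtain ⟨σ, -, h⟩ := Finset.exists_mem_eq_inf' (s := (univ : Finset (Asg n))) univ_nonempty
    (fun σ => l.countP fun c => @decide (σ ∉ s c) (Classical.propDecidable _))
  exact ⟨σ, by convert h⟩

theorem cnt_nil {α : Type} {n : ℕ} (s : α → Set (Asg n)) (σ : Asg n) : cnt s σ [] = 0 := rfl

theorem cnt_cons_mem {α : Type} {n : ℕ} (s : α → Set (Asg n)) {σ : Asg n} {c : α} (l : List α)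
    (h : σ ∈ s c) : cnt s σ (c :: l) = cnt s σ l := by
  unfold cnt
  rw [List.countP_cons]
  simp [h]

theorem cnt_cons_not {α : Type} {n : ℕ} (s : α → Set (Asg n)) {σ : Asg n} {c : α} (l : List α)
    (h : σ ∉ s c) : cnt s σ (c :: l) = cnt s σ l + 1 := by
  unfold cnt
  rw [List.countP_cons]
  simp [h]

theorem cnt_cons_le {α : Type} {n : ℕ} (s : α → Set (Asg n)) (σ : Asg n) (c : α) (l : List α) :
    cnt s σ (c :: l) ≤ cnt s σ l + 1 := by
  by_cases h : σ ∈ s c
  · rw [cnt_cons_mem s l h]; omega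
  · rw [cnt_cons_not s l h]

theorem cnt_le_cons {α : Type} {n : ℕ} (s : α → Set (Asg n)) (σ : Asg n) (c : α) (l : List α) :
    cnt s σ l ≤ cnt s σ (c :: l) := by
  by_cases h : σ ∈ s c
  · rw [cnt_cons_mem s l h]
  · rw [cnt_cons_not s l h]; omega

end ZeroT

open ZeroT

theorem mv_cons_le {α : Type} {n : ℕ} (s : α → Set (Asg n)) (c : α) (l : List α) :
    mv s (c :: l) ≤ mv s l + 1 := by
  obtain ⟨σ, h⟩ := mv_ex s l
  rw [h]
  exact (mv_le s _ σ).trans (cnt_cons_le s σ c l)

theorem mv_sublist {α : Type} {n : ℕ} (s : α → Set (Asg n)) {l l' : List α} (h : l.Sublist l') :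
    mv s l ≤ mv s l' := by
  obtain ⟨σ, hσ⟩ := mv_ex s l'
  rw [hσ]
  exact (mv_le s _ σ).trans h.countP_le

theorem mv_perm {α : Type} {n : ℕ} (s : α → Set (Asg n)) {l l' : List α} (h : l.Perm l') :
    mv s l = mv s l' := by
  unfold mv
  congr 1
  funext σ
  exact h.countP_eq _

theorem mv_le_length {α : Type} {n : ℕ} (s : α → Set (Asg n)) (l : List α) :
    mv s l ≤ l.length :=
  (mv_le s l fun _ => true).trans List.countP_le_length

theorem mv_eq_zero {α : Type} {n : ℕ} (s : α → Set (Asg n)) (l : List α) :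
    mv s l = 0 ↔ ∃ σ, ∀ c ∈ l, σ ∈ s c := by
  constructor
  · intro h
    obtain ⟨σ, hσ⟩ := mv_ex s l
    refine ⟨σ, fun c hc => ?_⟩
    rw [h] at hσ
    have := List.countP_eq_zero.1 hσ.symm c hc
    simpa using this
  · rintro ⟨σ, hσ⟩
    have h1 : cnt s σ l = 0 := List.countP_eq_zero.2 fun c hc => by simpa using hσ c hc
    have := mv_le s l σ
    omega

theorem EV_nonneg (n m : ℕ) : 0 ≤ EV n m :=
  EL_nonneg _ _ fun _ => Nat.cast_nonneg _

namespace ZeroT

theorem EL_mv_le_succ {α : Type} {n : ℕ} (s : α → Set (Asg n)) {S : Finset α} (hS : S.Nonempty)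
    (m : ℕ) : EL S m (fun l => (mv s l : ℝ)) ≤ EL S (m + 1) fun l => (mv s l : ℝ) := by
  have h1 : EL S (m + 1) (fun l => (mv s l : ℝ)) =
      av S fun c => EL S m fun l => (mv s (c :: l) : ℝ) := rfl
  rw [h1, ← av_const hS (EL S m (fun l => (mv s l : ℝ)))]
  refine av_mono fun c _ => EL_mono _ _ fun l => ?_
  exact_mod_cast mv_sublist s (List.sublist_cons_self c l)

theorem EL_mv_succ_le {α : Type} {n : ℕ} (s : α → Set (Asg n)) {S : Finset α} (hS : S.Nonempty)
    (m : ℕ) : EL S (m + 1) (fun l => (mv s l : ℝ)) ≤ EL S m (fun l => (mv s l : ℝ)) + 1 := by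
  have h1 : EL S (m + 1) (fun l => (mv s l : ℝ)) =
      av S fun c => EL S m fun l => (mv s (c :: l) : ℝ) := rfl
  rw [h1, ← av_const hS (EL S m (fun l => (mv s l : ℝ)) + 1)]
  refine av_mono fun c _ => ?_
  rw [← EL_const hS m 1, ← EL_add]
  refine EL_mono _ _ fun l => ?_
  exact_mod_cast mv_cons_le s c l

theorem EL_mv_mono {α : Type} {n : ℕ} (s : α → Set (Asg n)) {S : Finset α} (hS : S.Nonempty)
    {m m' : ℕ} (h : m ≤ m') : EL S m (fun l => (mv s l : ℝ)) ≤ EL S m' fun l => (mv s l : ℝ) := by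
  induction h with
  | refl => exact le_rfl
  | step _ ih => exact ih.trans (EL_mv_le_succ s hS _)

theorem EL_mv_lip {α : Type} {n : ℕ} (s : α → Set (Asg n)) {S : Finset α} (hS : S.Nonempty)
    {m m' : ℕ} (h : m ≤ m') :
    EL S m' (fun l => (mv s l : ℝ)) ≤ EL S m (fun l => (mv s l : ℝ)) + ((m' : ℝ) - m) := by
  induction h with
  | refl => simp
  | @step k _ ih =>
    have := EL_mv_succ_le s hS k
    simp only [Nat.succ_eq_add_one]
    push_cast
    linarith

theorem WC_nonempty {n : ℕ} (hn : 0 < n) : (univ : Finset (WC n)).Nonempty :=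
  ⟨(fun _ => ⟨0, hn⟩, fun _ => true), mem_univ _⟩

theorem Clause_nonempty {n : ℕ} (hn : 3 ≤ n) : (univ : Finset (Clause 3 n)).Nonempty :=
  ⟨(⟨Fin.castLE hn, Fin.castLE_injective hn⟩, fun _ => true), mem_univ _⟩

end ZeroT

theorem EV_mono {n : ℕ} (hn : 0 < n) {m m' : ℕ} (h : m ≤ m') : EV n m ≤ EV n m' :=
  EL_mv_mono _ (WC_nonempty hn) h

theorem EV_lip {n : ℕ} (hn : 0 < n) {m m' : ℕ} (h : m ≤ m') :
    EV n m' ≤ EV n m + ((m' : ℝ) - m) :=
  EL_mv_lip _ (WC_nonempty hn) h

theorem EVd_mono {n : ℕ} (hn : 3 ≤ n) {m m' : ℕ} (h : m ≤ m') : EVd n m ≤ EVd n m' :=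
  EL_mv_mono _ (Clause_nonempty hn) h

namespace ZeroT

/-- the hybrid argument -/
theorem hybrid {α β : Type} {T : Finset β} {S : Finset α} (hT : T.Nonempty) (hS : S.Nonempty)
    (f : α → β) (δ : ℝ) : ∀ (M : ℕ) (φ : List β → ℝ),
    (∀ l₁ l₂, av T (fun c => φ (l₁ ++ c :: l₂)) ≤ av S (fun d => φ (l₁ ++ f d :: l₂)) + δ) →
    EL T M φ ≤ EL S M (fun l => φ (l.map f)) + M * δ
  | 0, φ, _ => by simp [EL]
  | M + 1, φ, h => by
    have h1 : EL T (M + 1) φ = av T fun c => EL T M fun l => φ (c :: l) := rfl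
    have h2 : EL S (M + 1) (fun l => φ (l.map f)) =
        av S fun d => EL S M fun l => φ (f d :: l.map f) := rfl
    have h3 : av T (fun c => EL T M fun l => φ (c :: l)) ≤
        av T (fun c => EL S M (fun l => φ (c :: l.map f)) + M * δ) :=
      av_mono fun c _ => hybrid hT hS f δ M (fun l => φ (c :: l)) fun l₁ l₂ => h (c :: l₁) l₂
    rw [av_add, av_const hT] at h3
    have h4 : EL S M (fun l => av T fun c => φ (c :: l.map f)) ≤
        EL S M (fun l => av S (fun d => φ (f d :: l.map f)) + δ) :=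
      EL_mono _ _ fun l => h [] (l.map f)
    rw [EL_add, EL_const hS, EL_av, EL_av] at h4
    rw [h1, h2]
    push_cast
    linarith

theorem av_neg {α : Type} (S : Finset α) (f : α → ℝ) : av S (fun a => -f a) = -av S f := by
  have := av_mul_left S (-1) f
  simpa using this

theorem EL_neg {α : Type} (S : Finset α) (M : ℕ) (φ : List α → ℝ) :
    EL S M (fun l => -φ l) = -EL S M φ := by
  have := EL_mul_left S M (-1) φ
  simpa using this

/-- proper clauses as clauses with replacement -/
def io {n : ℕ} (c : Clause 3 n) : WC n := (c.1.1, c.2)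

theorem io_inj {n : ℕ} : Function.Injective (io (n := n)) := by
  rintro ⟨⟨v, hv⟩, b⟩ ⟨⟨v', hv'⟩, b'⟩ h
  simp only [io, Prod.mk.injEq] at h
  obtain ⟨rfl, rfl⟩ := h
  rfl

theorem mv_map {α β : Type} {n : ℕ} (s : β → Set (Asg n)) (f : α → β) (l : List α) :
    mv s (l.map f) = mv (fun a => s (f a)) l := by
  unfold mv
  congr 1
  funext σ
  rw [List.countP_map]
  rfl

theorem card_WC (n : ℕ) : Fintype.card (WC n) = n ^ 3 * 8 := by
  simp [WC]

theorem card_Clause (n : ℕ) : Fintype.card (Clause 3 n) = n.descFactorial 3 * 8 := by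
  rw [Fintype.card_prod,
    Fintype.card_congr (Equiv.subtypeInjectiveEquivEmbedding (Fin 3) (Fin n)),
    Fintype.card_embedding_eq]
  simp

theorem card_ratio {n : ℕ} (hn : 3 ≤ n) :
    ((Fintype.card (WC n) : ℝ) - Fintype.card (Clause 3 n)) ≤ 3 / n * Fintype.card (WC n) := by
  rw [card_WC, card_Clause]
  obtain ⟨k, rfl⟩ := Nat.exists_eq_add_of_le hn
  have h1 : (3 + k).descFactorial 3 = (k + 1) * ((k + 2) * (k + 3)) := by
    simp only [Nat.descFactorial_succ, Nat.descFactorial_zero]
    have e1 : 3 + k - 2 = k + 1 := by omega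
    have e2 : 3 + k - 1 = k + 2 := by omega
    have e3 : 3 + k - 0 = k + 3 := by omega
    rw [e1, e2, e3]; ring
  rw [h1]
  have hk : (0 : ℝ) ≤ k := Nat.cast_nonneg k
  push_cast
  have h2 : 3 / (3 + (k : ℝ)) * ((3 + k) ^ 3 * 8) = 24 * (3 + k) ^ 2 := by
    field_simp; ring
  rw [h2]
  nlinarith

theorem step_compare {n : ℕ} (hn : 3 ≤ n) (g : WC n → ℝ) (hg : ∀ a b, g a ≤ g b + 1) :
    av univ g ≤ av univ (fun d : Clause 3 n => g (io d)) + 3 / n := by
  classical
  set A := av univ (fun d : Clause 3 n => g (io d)) with hA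
  have hC := Clause_nonempty hn
  have hW := WC_nonempty (n := n) (by omega)
  have hCpos : (0 : ℝ) < Fintype.card (Clause 3 n) := by exact_mod_cast hC.card_pos
  have hWpos : (0 : ℝ) < Fintype.card (WC n) := by exact_mod_cast hW.card_pos
  have h1 : ∀ a, g a ≤ A + 1 := by
    intro a
    have := av_mono (S := (univ : Finset (Clause 3 n))) (f := fun _ => g a)
      (g := fun d => g (io d) + 1) fun d _ => hg a (io d)
    rwa [av_const hC, av_add, av_const hC] at this
  let I : Finset (WC n) := univ.map ⟨io, io_inj⟩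
  have hI : (I.card : ℝ) = Fintype.card (Clause 3 n) := by simp [I]
  have h2 : ∑ a ∈ I, g a = Fintype.card (Clause 3 n) * A := by
    rw [hA, av, sum_map]
    simp only [Function.Embedding.coeFn_mk, card_univ]
    field_simp
  have h3 : ∑ a ∈ Iᶜ, g a ≤ (Fintype.card (WC n) - Fintype.card (Clause 3 n) : ℝ) * (A + 1) := by
    have := sum_le_card_nsmul Iᶜ g (A + 1) fun a _ => h1 a
    rw [nsmul_eq_mul, card_compl, Nat.cast_sub (card_le_univ I), hI] at this
    exact this
  have h4 : ∑ a, g a = ∑ a ∈ I, g a + ∑ a ∈ Iᶜ, g a := (sum_add_sum_compl I g).symm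
  have h5 := card_ratio hn
  rw [av, div_le_iff₀ (by simpa using hWpos), h4, h2, card_univ]
  nlinarith

theorem mv_change {α : Type} {n : ℕ} (s : α → Set (Asg n)) (l₁ l₂ : List α) (a b : α) :
    mv s (l₁ ++ a :: l₂) ≤ mv s (l₁ ++ b :: l₂) + 1 := by
  rw [mv_perm s List.perm_middle, mv_perm s (List.perm_middle (a := b))]
  exact (mv_cons_le s a _).trans (Nat.succ_le_succ (mv_sublist s (List.sublist_cons_self b _)))

end ZeroT

/-- Map proper clauses into `WC n` (`sat c = wsat (ι c)`); the image is the set `I` of clauses with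
injective variables, `|I|/|WC n| = (1-1/n)(1-2/n) ≥ 1 - 3/n`.  Hybrid argument: for every `φ` on
lists whose value changes by at most `1` when one entry is changed,
`|EL univ m φ - EL I m φ| ≤ 3m/n` (induction on `m` generalizing `φ`). -/
theorem EV_compare {n : ℕ} (hn : 3 ≤ n) (m : ℕ) : |EV n m - EVd n m| ≤ 3 * m / n := by
  have hC := Clause_nonempty hn
  have hW := WC_nonempty (n := n) (by omega)
  have hd : EVd n m = EL (univ : Finset (Clause 3 n)) m fun l => (mv wsat (l.map io) : ℝ) := by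
    unfold EVd
    refine EL_congr _ _ fun l _ _ => ?_
    rw [mv_map]
    rfl
  have h1 := hybrid hW hC io (3 / n) m (fun l => (mv wsat l : ℝ)) fun l₁ l₂ =>
    step_compare hn (fun c => (mv wsat (l₁ ++ c :: l₂) : ℝ)) fun a b => by
      exact_mod_cast mv_change wsat l₁ l₂ a b
  have h2 := hybrid hW hC io (3 / n) m (fun l => -(mv wsat l : ℝ)) fun l₁ l₂ =>
    step_compare hn (fun c => -(mv wsat (l₁ ++ c :: l₂) : ℝ)) fun a b => by
      have : (mv wsat (l₁ ++ b :: l₂) : ℝ) ≤ mv wsat (l₁ ++ a :: l₂) + 1 := by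
        exact_mod_cast mv_change wsat l₁ l₂ b a
      linarith
  rw [EL_neg, EL_neg] at h2
  rw [hd, abs_le]
  unfold EV
  have e : (3 : ℝ) * m / n = m * (3 / n) := by ring
  rw [e]
  constructor <;> linarith

namespace ZeroT

theorem av_prod {α β : Type} [Fintype α] [Fintype β] (f : α × β → ℝ) :
    av univ f = av univ fun a => av univ fun b => f (a, b) := by
  unfold av
  rw [Fintype.sum_prod_type, ← sum_div, div_div, card_univ, card_univ, card_univ,
    Fintype.card_prod]
  push_cast
  rw [mul_comm]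

theorem av_equiv {α β : Type} [Fintype α] [Fintype β] (e : α ≃ β) (f : β → ℝ) :
    av univ (fun a => f (e a)) = av univ f := by
  unfold av
  rw [Equiv.sum_comp e f, card_univ, card_univ, Fintype.card_congr e]

theorem av_cube {n : ℕ} (χ : Fin n × Bool → ℝ) :
    av (univ : Finset (WC n)) (fun c => ∏ j, χ (c.1 j, c.2 j)) = (av univ χ) ^ 3 := by
  have h := av_equiv (Equiv.arrowProdEquivProdArrow (Fin 3) (fun _ => Fin n) (fun _ => Bool))
    (fun c : WC n => ∏ j, χ (c.1 j, c.2 j))
  rw [← h]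
  unfold av
  rw [div_pow, Fintype.sum_pow]
  simp [Equiv.arrowProdEquivProdArrow]

theorem av_jensen {α : Type} [Fintype α] (x : α → ℝ) (hx : ∀ a, 0 ≤ x a) :
    (av univ x) ^ 3 ≤ av univ fun a => x a ^ 3 := by
  unfold av
  rcases Nat.eq_zero_or_pos (univ : Finset α).card with h | h
  · simp [h]
  have hpos : (0 : ℝ) < (univ : Finset α).card := by exact_mod_cast h
  have := pow_sum_div_card_le_sum_pow (s := (univ : Finset α)) (f := x) (fun a _ => hx a) 2
  rw [div_pow, le_div_iff₀ hpos]
  refine le_trans (le_of_eq ?_) this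
  field_simp

open Classical in
/-- indicator of the frozen literals -/
noncomputable def fz {N : ℕ} (l : List (WC N)) (p : Fin N × Bool) : ℝ :=
  if ∀ σ : Asg N, cnt wsat σ l = mv wsat l → σ p.1 ≠ p.2 then 1 else 0

theorem fz_nonneg {N : ℕ} (l : List (WC N)) (p : Fin N × Bool) : 0 ≤ fz l p := by
  unfold fz; split_ifs <;> norm_num

theorem mv_cons_eq {N : ℕ} (l : List (WC N)) (c : WC N) :
    (mv wsat (c :: l) : ℝ) = mv wsat l + ∏ j, fz l (c.1 j, c.2 j) := by
  by_cases h : ∀ j, ∀ σ : Asg N, cnt wsat σ l = mv wsat l → σ (c.1 j) ≠ c.2 j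
  · have h1 : ∏ j, fz l (c.1 j, c.2 j) = 1 := by
      refine prod_eq_one fun j _ => ?_
      unfold fz
      rw [if_pos (h j)]
    have h2 : mv wsat (c :: l) = mv wsat l + 1 := by
      refine le_antisymm (mv_cons_le _ _ _) ?_
      obtain ⟨σ, hσ⟩ := mv_ex wsat (c :: l)
      rw [hσ]
      by_cases h3 : cnt wsat σ l = mv wsat l
      · rw [cnt_cons_not, h3]
        rintro ⟨j, hj⟩
        exact h j σ h3 hj
      · have h4 := mv_le wsat l σ
        have h5 := cnt_le_cons wsat σ c l
        omega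
    rw [h1, h2]; push_cast; rfl
  · push Not at h
    obtain ⟨j, σ, hσ, hj⟩ := h
    have h1 : ∏ j, fz l (c.1 j, c.2 j) = 0 := by
      refine prod_eq_zero (mem_univ j) ?_
      unfold fz
      rw [if_neg]
      intro h
      exact h σ hσ hj
    have h2 : mv wsat (c :: l) = mv wsat l := by
      refine le_antisymm ?_ (mv_sublist _ (List.sublist_cons_self c l))
      refine (mv_le _ _ σ).trans ?_
      rw [cnt_cons_mem wsat l ⟨j, hj⟩, hσ]
    rw [h1, h2, add_zero]

/-- block clauses -/
def emb {t n : ℕ} (p : Fin t × WC n) : WC (t * n) :=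
  (fun j => finProdFinEquiv (p.1, p.2.1 j), p.2.2)

theorem step_super {n t : ℕ} (hn : 0 < n) (ht : 0 < t) (l : List (WC (t * n))) :
    av univ (fun c => (mv wsat (c :: l) : ℝ)) ≤
      av univ (fun d : Fin t × WC n => (mv wsat (emb d :: l) : ℝ)) := by
  have hW := WC_nonempty (Nat.mul_pos ht hn)
  have hB : (univ : Finset (Fin t × WC n)).Nonempty := by
    obtain ⟨c, -⟩ := WC_nonempty hn
    exact ⟨(⟨0, ht⟩, c), mem_univ _⟩
  simp only [mv_cons_eq]
  rw [av_add, av_add, av_const hW, av_const hB, av_cube]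
  refine add_le_add le_rfl ?_
  rw [av_prod (fun d : Fin t × WC n => ∏ j, fz l ((emb d).1 j, (emb d).2 j))]
  have h1 : ∀ i : Fin t, av univ (fun c : WC n => ∏ j, fz l ((emb (i, c)).1 j, (emb (i, c)).2 j)) =
      (av univ fun p : Fin n × Bool => fz l (finProdFinEquiv (i, p.1), p.2)) ^ 3 := fun i =>
    av_cube fun p : Fin n × Bool => fz l (finProdFinEquiv (i, p.1), p.2)
  simp only [h1]
  have h2 : av univ (fz l) =
      av univ fun i : Fin t => av univ fun p : Fin n × Bool =>
        fz l (finProdFinEquiv (i, p.1), p.2) := by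
    rw [← av_equiv ((Equiv.prodAssoc (Fin t) (Fin n) Bool).symm.trans
      (Equiv.prodCongr finProdFinEquiv (Equiv.refl Bool))) (fz l), av_prod]
    rfl
  rw [h2]
  exact av_jensen _ fun i => av_nonneg fun p _ => fz_nonneg _ _

/-- the clauses of block `i` -/
def blk {t : ℕ} {β : Type} (i : Fin t) : List (Fin t × β) → List β
  | [] => []
  | p :: L => if p.1 = i then p.2 :: blk i L else blk i L

theorem cnt_glue {n t : ℕ} (τ : Fin t → Asg n) : ∀ L : List (Fin t × WC n),
    cnt wsat (fun w => τ (finProdFinEquiv.symm w).1 (finProdFinEquiv.symm w).2) (L.map emb) =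
      ∑ i, cnt wsat (τ i) (blk i L)
  | [] => by simp [blk, cnt_nil]
  | p :: L => by
    have ih := cnt_glue τ L
    have hiff : (fun w => τ (finProdFinEquiv.symm w).1 (finProdFinEquiv.symm w).2) ∈
        wsat (emb p) ↔ τ p.1 ∈ wsat p.2 := by
      simp [wsat, emb, -finProdFinEquiv_symm_apply]
    rw [List.map_cons]
    by_cases h : τ p.1 ∈ wsat p.2
    · rw [cnt_cons_mem _ _ (hiff.2 h), ih]
      refine sum_congr rfl fun i _ => ?_
      simp only [blk]
      split_ifs with hi
      · subst hi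
        rw [cnt_cons_mem _ _ h]
      · rfl
    · rw [cnt_cons_not _ _ (fun h' => h (hiff.1 h')), ih]
      have h1 : ∀ i, cnt wsat (τ i) (blk i (p :: L)) =
          cnt wsat (τ i) (blk i L) + if p.1 = i then 1 else 0 := by
        intro i
        simp only [blk]
        split_ifs with hi
        · subst hi
          rw [cnt_cons_not _ _ h]
        · rfl
      simp only [h1, sum_add_distrib, sum_ite_eq, mem_univ, if_true]

theorem mv_glue {n t : ℕ} (L : List (Fin t × WC n)) :
    mv wsat (L.map emb) ≤ ∑ i, mv wsat (blk i L) := by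
  choose τ hτ using fun i : Fin t => mv_ex wsat (blk i L)
  simp only [hτ]
  rw [← cnt_glue τ L]
  exact mv_le _ _ _

theorem EL_blk {t : ℕ} {β : Type} [Fintype β] (hβ : (univ : Finset β).Nonempty) (i : Fin t) :
    ∀ (M : ℕ) (φ : List β → ℝ),
    EL (univ : Finset (Fin t × β)) M (fun L => φ (blk i L)) =
      EL (univ : Finset (Fin t)) M fun l => EL univ (l.count i) φ
  | 0, φ => by simp [EL, blk]
  | M + 1, φ => by
    have h1 : EL (univ : Finset (Fin t × β)) (M + 1) (fun L => φ (blk i L)) =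
        av univ fun p : Fin t × β => EL univ M fun L => φ (blk i (p :: L)) := rfl
    have h2 : (EL (univ : Finset (Fin t)) (M + 1) fun l => EL univ (l.count i) φ) =
        av univ fun j : Fin t => EL univ M fun l => EL univ ((j :: l).count i) φ := rfl
    rw [h1, h2, av_prod]
    refine av_congr fun j _ => ?_
    by_cases hj : j = i
    · subst hj
      simp only [blk, if_true, List.count_cons_self]
      have h3 : ∀ k : ℕ, EL (univ : Finset β) (k + 1) φ =
          av univ fun c => EL univ k fun l => φ (c :: l) := fun _ => rfl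
      simp only [h3]
      rw [EL_av]
      exact av_congr fun c _ => EL_blk hβ j M fun l => φ (c :: l)
    · simp only [blk, if_neg hj, List.count_cons_of_ne hj]
      rw [av_const hβ]
      exact EL_blk hβ i M φ

theorem av_ite {t : ℕ} (i : Fin t) (A B : ℝ) :
    av univ (fun j : Fin t => if j = i then A else B) = B + (A - B) / t := by
  have ht : (0 : ℝ) < t := by exact_mod_cast i.pos
  have h1 : ∀ j : Fin t, (if j = i then A else B) = B + if j = i then A - B else 0 := by
    intro j; split_ifs <;> ring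
  simp only [h1]
  rw [av_add, av_const ⟨i, mem_univ _⟩]
  simp [av]

theorem EL_count_sq {t : ℕ} (i : Fin t) : ∀ (M : ℕ) (a : ℝ),
    EL (univ : Finset (Fin t)) M (fun l => ((l.count i : ℝ) - a) ^ 2) ≤
      ((M : ℝ) / t - a) ^ 2 + M / t
  | 0, a => by simp [EL]
  | M + 1, a => by
    have ht : (0 : ℝ) < t := by exact_mod_cast i.pos
    have h1 : EL (univ : Finset (Fin t)) (M + 1) (fun l => ((l.count i : ℝ) - a) ^ 2) =
        av univ fun j : Fin t => EL univ M fun l => (((j :: l).count i : ℝ) - a) ^ 2 := rfl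
    rw [h1]
    have h2 : av univ (fun j : Fin t => EL univ M fun l => (((j :: l).count i : ℝ) - a) ^ 2) ≤
        av univ fun j : Fin t => if j = i then ((M : ℝ) / t - (a - 1)) ^ 2 + M / t
          else ((M : ℝ) / t - a) ^ 2 + M / t := by
      refine av_mono fun j _ => ?_
      split_ifs with hj
      · subst hj
        refine le_trans (le_of_eq ?_) (EL_count_sq j M (a - 1))
        refine EL_congr _ _ fun l _ _ => ?_
        rw [List.count_cons_self]
        push_cast
        ring
      · simp only [List.count_cons_of_ne hj]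
        exact EL_count_sq i M a
    refine h2.trans ?_
    rw [av_ite]
    push_cast
    have h3 : (((M : ℝ) + 1) / t - a) ^ 2 + (M + 1) / t - (((M : ℝ) / t - a) ^ 2 + M / t +
        (((M : ℝ) / t - (a - 1)) ^ 2 + M / t - (((M : ℝ) / t - a) ^ 2 + M / t)) / t) =
        (1 / t) ^ 2 := by
      field_simp
      ring
    nlinarith [sq_nonneg (1 / (t : ℝ))]

theorem EV_le_abs {n : ℕ} (hn : 0 < n) (k m : ℕ) : EV n k ≤ EV n m + |(k : ℝ) - m| := by
  rcases le_total k m with h | h
  · have := EV_mono hn h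
    have := abs_nonneg ((k : ℝ) - m)
    linarith
  · have := EV_lip hn h
    have := le_abs_self ((k : ℝ) - m)
    linarith

theorem block_bound {n t : ℕ} (hn : 0 < n) (i : Fin t) {m : ℕ} (hm : 0 < m) :
    EL (univ : Finset (Fin t)) (t * m) (fun l => EV n (l.count i)) ≤ EV n m + Real.sqrt m := by
  have ht : (0 : ℝ) < t := by exact_mod_cast i.pos
  have hmpos : (0 : ℝ) < m := by exact_mod_cast hm
  have hs : 0 < Real.sqrt m := Real.sqrt_pos.2 hmpos
  have hsq : Real.sqrt m * Real.sqrt m = m := Real.mul_self_sqrt hmpos.le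
  have hne : (univ : Finset (Fin t)).Nonempty := ⟨i, mem_univ _⟩
  have h1 : EL (univ : Finset (Fin t)) (t * m) (fun l => EV n (l.count i)) ≤
      EL (univ : Finset (Fin t)) (t * m) (fun l => (EV n m + Real.sqrt m / 2) +
        (1 / (2 * Real.sqrt m)) * ((l.count i : ℝ) - m) ^ 2) := by
    refine EL_mono _ _ fun l => (EV_le_abs hn _ m).trans ?_
    set y := |(l.count i : ℝ) - m| with hy
    rw [← sq_abs, ← hy]
    have h2 : Real.sqrt m / 2 + 1 / (2 * Real.sqrt m) * y ^ 2 - y =
        (y - Real.sqrt m) ^ 2 / (2 * Real.sqrt m) := by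
      field_simp
      ring
    have h3 : 0 ≤ (y - Real.sqrt m) ^ 2 / (2 * Real.sqrt m) := by positivity
    linarith
  rw [EL_add, EL_const hne, EL_mul_left] at h1
  have h2 := EL_count_sq i (t * m) m
  have h3 : ((t * m : ℕ) : ℝ) / t = m := by
    push_cast
    field_simp
  rw [h3, sub_self] at h2
  have h4 : 1 / (2 * Real.sqrt m) * EL (univ : Finset (Fin t)) (t * m)
      (fun l => ((l.count i : ℝ) - m) ^ 2) ≤ 1 / (2 * Real.sqrt m) * (0 ^ 2 + m) :=
    mul_le_mul_of_nonneg_left h2 (by positivity)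
  have h5 : 1 / (2 * Real.sqrt m) * ((0 : ℝ) ^ 2 + m) = Real.sqrt m / 2 := by
    field_simp
    nlinarith
  linarith

end ZeroT

/-- Zero temperature interpolation.  `N = t n` variables, identified with `Fin t × Fin n`
(`finProdFinEquiv`).  A block clause is a pair `(i, c) : Fin t × WC n`, embedded in `WC N`.
One step: for any list `l` let `Opt` be the nonempty set of minimisers; `mv (c :: l) = mv l + 1` iff
every minimiser violates `c` iff all three literals of `c` are in `Fz = {(w,b) | ∀ σ ∈ Opt, σ w ≠ b}`,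
otherwise `mv (c :: l) = mv l`.  So `av_{c ∈ WC N} mv (c :: l) = mv l + x³` and
`av_{(i,c)} mv (emb i c :: l) = mv l + av_i x_i³`, where `x_i` is the fraction of literals of block
`i` in `Fz` and `x = av_i x_i`; Jensen (`pow_arith_mean_le_arith_mean_pow`) gives `≤`.
Hybrid argument (`mv_perm` to move the replaced clause to the front): `EV N M ≤ EL M (mv ∘ map emb)`.
For a list of block clauses, `mv ≤ Σ_i mv (clauses of block i)` (glue the minimisers).  Finally, for
every `i`, `EL (univ : Fin t × WC n) M (mv of block i) = EL (univ : Fin t) M (fun l => EV n (count i l))`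
(prove it by induction on `M` for general `φ` of the filtered list) `≤ EV n m + E |count - m|`
(`EV_mono`, `EV_lip`), and for `M = t m` the count has mean `m` and variance `≤ m` (induction), so
`E |count - m| ≤ √m` (`|y| ≤ (y²/√m + √m)/2`). -/
theorem EV_super {n t : ℕ} (hn : 0 < n) (ht : 0 < t) (m : ℕ) :
    EV (t * n) (t * m) ≤ t * (EV n m + Real.sqrt m) := by
  rcases Nat.eq_zero_or_pos m with rfl | hm
  · have h1 : EV (t * n) (t * 0) = 0 := by
      have := mv_le_length (wsat (n := t * n)) []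
      simp only [List.length_nil, Nat.le_zero] at this
      simp [EV, EL, this]
    rw [h1]
    have := EV_nonneg n 0
    positivity
  have hW := WC_nonempty (Nat.mul_pos ht hn)
  have hB : (univ : Finset (Fin t × WC n)).Nonempty := by
    obtain ⟨c, -⟩ := WC_nonempty hn
    exact ⟨(⟨0, ht⟩, c), mem_univ _⟩
  have h1 := hybrid hW hB emb 0 (t * m) (fun l => (mv wsat l : ℝ)) fun l₁ l₂ => by
    simp only [mv_perm wsat List.perm_middle, add_zero]
    exact step_super hn ht _
  rw [mul_zero, add_zero] at h1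
  have h2 : EL (univ : Finset (Fin t × WC n)) (t * m) (fun l => (mv wsat (l.map emb) : ℝ)) ≤
      EL (univ : Finset (Fin t × WC n)) (t * m) (fun l => ∑ i, (mv wsat (blk i l) : ℝ)) :=
    EL_mono _ _ fun l => by exact_mod_cast mv_glue l
  rw [EL_sum] at h2
  have h3 : ∀ i : Fin t, EL (univ : Finset (Fin t × WC n)) (t * m)
      (fun l => (mv wsat (blk i l) : ℝ)) ≤ EV n m + Real.sqrt m := by
    intro i
    rw [EL_blk (WC_nonempty hn) i (t * m) fun l => (mv wsat l : ℝ)]
    exact block_bound hn i hm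
  have h4 := sum_le_card_nsmul univ _ _ fun i _ => h3 i
  rw [card_univ, Fintype.card_fin, nsmul_eq_mul] at h4
  exact h1.trans (h2.trans h4)

end Crest.Agent.R153
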