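import Crest.Agent.R153.Link
import Crest.Agent.R153.Zero

/-! Consequences of a sharp threshold (task R153 ExpTail). -/

set_option autoImplicit false

namespace Crest.Agent.R153

open Crest.ProbabilityR.RandomSAT Finset Filter BigOperators

/-- otherwise `satProb 3 n 0 = 1` tends to `0` -/
theorem thr_nonneg {α : ℝ} (hα : IsSharpThreshold (satProb 3) α) : 0 ≤ α := by
  by_contra h
  have h1 := (hα 0 le_rfl).2 (not_le.1 h)
  have h2 : ∀ n : ℕ, satProb 3 n ⌊(0 : ℝ) * n⌋₊ = 1 := by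
    intro n
    rw [zero_mul, Nat.floor_zero, satProb_eq_EL]
    simp [EL]
  simp only [h2] at h1
  exact one_ne_zero (tendsto_nhds_unique tendsto_const_nhds h1)

theorem exp_tail {α : ℝ} (hα : IsSharpThreshold (satProb 3) α) : ∃ κ : ℝ, 0 < κ ∧
    ∀ η : ℝ, 0 < η → η ≤ 1 → ∀ᶠ n : ℕ in atTop, ∀ m : ℕ, (α + η) * n ≤ m →
      satProb 3 n m ≤ Real.exp (-(κ * η ^ 2 * n)) := by
  have h0 := thr_nonneg hα
  obtain ⟨l0, K, n0, hl0, hK, H⟩ := R153A.mgf_bound (le_refl 3) (α + 3) (by linarith)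
  set l1 := min l0 (1 / (4 * K)) with hl1
  have hl1pos : 0 < l1 := lt_min hl0 (by positivity)
  have hl1K : K * l1 ≤ 1 / 4 := by
    have : l1 ≤ 1 / (4 * K) := min_le_right _ _
    rw [le_div_iff₀ (by positivity)] at this
    linarith
  have hl1l : l1 ≤ l0 := min_le_left _ _
  clear_value l1
  refine ⟨l1 / 4, by positivity, fun η hη hη1 => ?_⟩
  have h1 := (hα (α + η / 4) (by positivity)).2 (by linarith)
  have h2 := h1.eventually (gt_mem_nhds (show (0 : ℝ) < η / (4 * (α + 3)) by positivity))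
  filter_upwards [h2, eventually_ge_atTop 3, eventually_ge_atTop n0] with n hn h3 hn0 m hm
  have := R153A.nonempty_clause h3
  have hn1 : (3 : ℝ) ≤ n := by exact_mod_cast h3
  set m0 := ⌈(α + η) * n⌉₊ with hm0
  have hm0m : m0 ≤ m := Nat.ceil_le.2 hm
  have hm0l : (α + η) * n ≤ m0 := Nat.le_ceil _
  have hm0u : (m0 : ℝ) < (α + η) * n + 1 := Nat.ceil_lt_add_one (by positivity)
  have hM : ((m0 + 1 : ℕ) : ℝ) ≤ (α + 3) * n := by push_cast; nlinarith
  refine (satProb_anti h3 hm0m).trans ?_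
  have hl : l1 * η ≤ l0 := by nlinarith
  have H1 := H n (m0 + 1) h3 hn0 hM (l1 * η) (by positivity) hl
  classical
  have H2 := R153A.chernoff
    (fun ω : Fin (m0 + 1) → Clause 3 n => (R153A.Hn (R153A.base n (m0 + 1)) ω : ℝ))
    (fun ω => (R153A.Sol (R153A.base n (m0 + 1)) ω m0).Nonempty) ((α + η) * n) (l1 * η) _
    (by positivity) (fun ω hω => by
      have := (R153A.lt_Hn _ ω (Nat.lt_succ_self m0)).1 hω
      have : (m0 : ℝ) ≤ R153A.Hn (R153A.base n (m0 + 1)) ω := by exact_mod_cast this.le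
      linarith) H1
  rw [← R153A.expect_al (M := m0 + 1) h3 (Nat.le_succ _)]
  simp only [R153A.al, R153A.ind_eq_ite]
  refine H2.trans (Real.exp_le_exp.2 ?_)
  have hE : 𝔼 ω : Fin (m0 + 1) → Clause 3 n, (R153A.Hn (R153A.base n (m0 + 1)) ω : ℝ)
      ≤ (α + η / 2) * n := by
    rw [R153A.expect_Hn h3]
    set m1 := ⌊(α + η / 4) * n⌋₊
    have hm1 : (m1 : ℝ) ≤ (α + η / 4) * n := Nat.floor_le (by positivity)
    have h5 : ∀ t, satProb 3 n t ≤ (if t < m1 then 1 else 0) + satProb 3 n m1 := by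
      intro t
      split_ifs with ht
      · linarith [satProb_le_one 3 n t, satProb_nonneg 3 n m1]
      · rw [zero_add]; exact satProb_anti h3 (not_lt.1 ht)
    refine (Finset.sum_le_sum fun t _ => h5 t).trans ?_
    rw [Finset.sum_add_distrib, Finset.sum_const, Finset.card_range, nsmul_eq_mul,
      Finset.sum_boole]
    have h6 : (((range (m0 + 1)).filter fun t => t < m1).card : ℝ) ≤ m1 := by
      have : ((range (m0 + 1)).filter fun t => t < m1) ⊆ range m1 := fun t ht =>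
        Finset.mem_range.2 (Finset.mem_filter.1 ht).2
      exact_mod_cast (Finset.card_le_card this).trans (by simp)
    have h7 : ((m0 + 1 : ℕ) : ℝ) * satProb 3 n m1 ≤ (α + 3) * n * (η / (4 * (α + 3))) :=
      mul_le_mul hM hn.le (satProb_nonneg _ _ _) (by positivity)
    have e : (α + 3) * n * (η / (4 * (α + 3))) = η / 4 * n := by field_simp
    linarith
  have h8 := mul_le_mul_of_nonneg_left hE (show 0 ≤ l1 * η by positivity)
  have h9 := mul_le_mul_of_nonneg_right hl1K (show 0 ≤ l1 * η ^ 2 * n by positivity)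
  nlinarith

open Classical R153A in
theorem prob_del {α : Type} {n : ℕ} (C : Finset α) (hC : C.Nonempty) (s : α → Set (Asg n))
    (m : ℕ) : ∀ (j t : ℕ) (S : Set (Asg n)), j + t = m →
    EL C m (fun l => ind (∃ σ ∈ S, l.countP (fun c => decide (σ ∉ s c)) ≤ t)) ≤
      (m.choose t : ℝ) * EL C j (fun l => ind (∃ σ ∈ S, ∀ c ∈ l, σ ∈ s c)) := by
  induction m with
  | zero =>
    intro j t S h
    obtain ⟨rfl, rfl⟩ : j = 0 ∧ t = 0 := by omega
    simp [EL]
  | succ m ih =>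
    intro j t S h
    rcases t with _ | t
    · obtain rfl : j = m + 1 := by omega
      rw [Nat.choose_zero_right, Nat.cast_one, one_mul]
      refine EL_mono _ _ fun l => le_of_eq ?_
      simp [List.countP_eq_zero]
    rcases j with _ | j
    · obtain rfl : t = m := by omega
      rw [Nat.choose_self, Nat.cast_one, one_mul]
      refine (EL_mono _ _ (ψ := fun _ => ind (∃ σ, σ ∈ S)) fun l => ?_).trans
        (le_of_eq ?_)
      · exact ind_mono fun ⟨σ, h1, _⟩ => ⟨σ, h1⟩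
      · rw [EL_const hC]; simp [EL]
    have h1 := ih (j + 1) t S (by omega)
    have h2 := fun c => ih j (t + 1) (S ∩ s c) (by omega)
    have h3 : EL C (j + 1) (fun l => ind (∃ σ ∈ S, ∀ c ∈ l, σ ∈ s c))
        = av C fun c => EL C j (fun l => ind (∃ σ ∈ S ∩ s c, ∀ c ∈ l, σ ∈ s c)) := by
      simp only [EL]
      refine av_congr fun c _ => EL_congr _ _ fun l _ _ => ?_
      simp [and_assoc]
    rw [Nat.choose_succ_succ', Nat.cast_add, add_mul]
    have h7 := av_mono (S := C) fun c _ => add_le_add h1 (h2 c)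
    rw [av_add C (fun _ => (m.choose t : ℝ) * _), av_const hC, av_mul_left, ← h3] at h7
    refine le_trans (av_mono fun c _ => ?_) h7
    rw [← EL_add]
    refine EL_mono _ _ fun l => ?_
    beta_reduce
    by_cases h4 : ∃ σ ∈ S, (c :: l).countP (fun c => decide (σ ∉ s c)) ≤ t + 1
    · rw [ind_pos h4]
      obtain ⟨σ, hσ, h5⟩ := h4
      by_cases h6 : σ ∈ s c
      · rw [ind_pos (show ∃ σ ∈ S ∩ s c, l.countP (fun c => decide (σ ∉ s c)) ≤ t + 1 from
          ⟨σ, ⟨hσ, h6⟩, by simpa [List.countP_cons, h6] using h5⟩)]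
        exact le_add_of_nonneg_left (ind_nonneg _)
      · rw [ind_pos (show ∃ σ ∈ S, l.countP (fun c => decide (σ ∉ s c)) ≤ t from
          ⟨σ, hσ, by simpa [List.countP_cons, h6] using h5⟩)]
        exact le_add_of_nonneg_right (ind_nonneg _)
    · rw [ind_neg h4]
      exact add_nonneg (ind_nonneg _) (ind_nonneg _)

open Classical in
/-- Union bound: if `mv sat l ≤ t ≤ |l|` then deleting some `t` entries leaves a satisfiable list. -/
theorem prob_mv_le {n : ℕ} (hn : 3 ≤ n) (j t : ℕ) :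
    EL (univ : Finset (Clause 3 n)) (j + t) (fun l => if mv sat l ≤ t then 1 else 0) ≤
      ((j + t).choose t : ℝ) * satProb 3 n j := by
  have := R153A.nonempty_clause hn
  have h := prob_del (univ : Finset (Clause 3 n)) Finset.univ_nonempty sat (j + t) j t Set.univ rfl
  rw [satProb_eq_EL]
  simp only [Set.mem_univ, true_and] at h
  simp only [← R153A.ind_eq_ite]
  refine le_trans (EL_mono _ _ fun l => le_of_eq (R153A.ind_congr ?_)) h
  simp [mv, Finset.inf'_le_iff]

theorem choose_le_exp (m t : ℕ) (htm : t ≤ m) {y : ℝ} (hy : 0 < y) :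
    (m.choose t : ℝ) ≤ Real.exp (y ^ 2 * m + 2 * t / y) := by
  have h1 : (y ^ 2) ^ t * 1 ^ (m - t) * (m.choose t : ℝ) ≤ (y ^ 2 + 1) ^ m := by
    rw [add_pow]
    exact Finset.single_le_sum (f := fun i => (y ^ 2) ^ i * 1 ^ (m - i) * (m.choose i : ℝ))
      (fun i _ => by positivity) (Finset.mem_range.2 (by omega))
  have h2 : (y ^ 2 + 1) ^ m ≤ Real.exp (y ^ 2 * m) := by
    rw [mul_comm, Real.exp_nat_mul]
    gcongr
    exact Real.add_one_le_exp _
  have h3 : 1 ≤ y * Real.exp (1 / y) := by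
    have := Real.add_one_le_exp (1 / y)
    have h4 : y * (1 / y + 1) = 1 + y := by field_simp
    nlinarith
  have h4 : 1 ≤ (y ^ 2) ^ t * Real.exp (2 * t / y) := by
    have e : Real.exp (2 * t / y) = Real.exp (1 / y) ^ (2 * t) := by
      rw [← Real.exp_nat_mul]; congr 1; push_cast; ring
    rw [e, ← pow_mul, ← mul_pow]
    exact one_le_pow₀ h3
  rw [one_pow, mul_one] at h1
  rw [Real.exp_add]
  calc (m.choose t : ℝ) ≤ m.choose t * ((y ^ 2) ^ t * Real.exp (2 * t / y)) :=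
        le_mul_of_one_le_right (by positivity) h4
    _ = (y ^ 2) ^ t * m.choose t * Real.exp (2 * t / y) := by ring
    _ ≤ _ := by gcongr; exact h1.trans h2

theorem EV_lower {α : ℝ} (hα : IsSharpThreshold (satProb 3) α) : ∃ κ₀ : ℝ, 0 < κ₀ ∧
    ∀ η : ℝ, 0 < η → η ≤ 1 → ∀ᶠ n : ℕ in atTop, ∀ m : ℕ, (α + η) * n ≤ m →
      κ₀ * η ^ 3 * n ≤ EV n m := by
  classical
  have h0 := thr_nonneg hα
  obtain ⟨κ, hκ, H⟩ := exp_tail hα
  obtain ⟨y0, hy0, hy1, hy2⟩ : ∃ y0 : ℝ, 0 < y0 ∧ y0 ≤ 1 ∧ y0 * (α + 2) ≤ κ / 16 := by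
    refine ⟨min 1 (κ / 16 / (α + 2)), lt_min one_pos (by positivity), min_le_left _ _, ?_⟩
    rw [← le_div_iff₀ (by positivity)]; exact min_le_right _ _
  obtain ⟨κ1, hκ0, hκ1, hκ2⟩ : ∃ κ1 : ℝ, 0 < κ1 ∧ κ1 ≤ 1 / 2 ∧ κ1 ≤ κ * y0 / 32 :=
    ⟨min (1 / 2) (κ * y0 / 32), lt_min (by norm_num) (by positivity), min_le_left _ _,
      min_le_right _ _⟩
  refine ⟨κ1 / 4, by positivity, fun η hη hη1 => ?_⟩
  have t1 : ∀ a b : ℝ, 0 < a → ∀ᶠ n : ℕ in atTop, b ≤ a * n := fun a b ha =>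
    (tendsto_natCast_atTop_atTop.const_mul_atTop ha).eventually_ge_atTop b
  filter_upwards [H (η / 2) (by positivity) (by linarith), eventually_ge_atTop 3,
    t1 (κ * η ^ 2 / 8) 1 (by positivity), t1 (κ1 * η ^ 3 / 4) (3 * (α + 2)) (by positivity)]
    with n hn h3 hA hB m hm
  have := R153A.nonempty_clause h3
  have hn1 : (3 : ℝ) ≤ n := by exact_mod_cast h3
  set m0 := ⌈(α + η) * n⌉₊ with hm0
  have hm0m : m0 ≤ m := Nat.ceil_le.2 hm
  have hm0l : (α + η) * n ≤ m0 := Nat.le_ceil _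
  have hm0u : (m0 : ℝ) < (α + η) * n + 1 := Nat.ceil_lt_add_one (by positivity)
  have hM : (m0 : ℝ) ≤ (α + 2) * n := by nlinarith
  set t := ⌊κ1 * η ^ 3 * n⌋₊
  have ht1 : (t : ℝ) ≤ κ1 * η ^ 3 * n := Nat.floor_le (by positivity)
  have ht2 : κ1 * η ^ 3 * n < t + 1 := Nat.lt_floor_add_one _
  have hη3 : η ^ 3 ≤ η := by
    have := pow_le_pow_of_le_one hη.le hη1 (show 1 ≤ 3 by norm_num)
    simpa using this
  have ht3 : (t : ℝ) ≤ η / 2 * n := by
    refine ht1.trans (mul_le_mul_of_nonneg_right ?_ (by positivity))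
    nlinarith [pow_pos hη 3]
  have htm : t ≤ m0 := by
    have : (t : ℝ) ≤ m0 := by nlinarith
    exact_mod_cast this
  obtain ⟨j, hj⟩ := Nat.exists_eq_add_of_le' htm
  have hjR : (m0 : ℝ) = j + t := by exact_mod_cast hj
  clear_value m0 t
  have P1 := prob_mv_le h3 j t
  rw [← hj] at P1
  have P2 := hn j (by linarith)
  have P3 := choose_le_exp m0 t htm (show 0 < y0 * η by positivity)
  have P4 : (m0.choose t : ℝ) * satProb 3 n j ≤ 1 / 2 := by
    refine (mul_le_mul P3 P2 (satProb_nonneg _ _ _) (Real.exp_pos _).le).trans ?_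
    rw [← Real.exp_add]
    have e1 : (y0 * η) ^ 2 * m0 ≤ κ * η ^ 2 * n / 16 := by
      calc (y0 * η) ^ 2 * m0 ≤ (y0 * η) ^ 2 * ((α + 2) * n) := by gcongr
        _ = y0 * (y0 * (α + 2)) * (η ^ 2 * n) := by ring
        _ ≤ 1 * (κ / 16) * (η ^ 2 * n) := by gcongr
        _ = _ := by ring
    have e2 : 2 * t / (y0 * η) ≤ κ * η ^ 2 * n / 16 := by
      rw [div_le_iff₀ (by positivity)]
      calc 2 * (t : ℝ) ≤ 2 * (κ * y0 / 32 * η ^ 3 * n) := by
            gcongr; exact ht1.trans (by gcongr)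
        _ = _ := by ring
    calc _ ≤ Real.exp (-1) := Real.exp_le_exp.2 (by nlinarith)
      _ ≤ 1 / 2 := by
        rw [Real.exp_neg, ← one_div]
        exact one_div_le_one_div_of_le (by norm_num) (by linarith [Real.add_one_le_exp 1])
  have P5 : (t + 1 : ℝ) ≤ EVd n m0 + (t + 1) *
      EL (univ : Finset (Clause 3 n)) m0 (fun l => if mv sat l ≤ t then 1 else 0) := by
    unfold EVd
    rw [← EL_mul_left, ← EL_add]
    nth_rewrite 1 [← EL_const (S := (univ : Finset (Clause 3 n))) Finset.univ_nonempty m0 (t + 1 : ℝ)]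
    refine EL_mono _ _ fun l => ?_
    split_ifs with hh
    · have : (0 : ℝ) ≤ mv sat l := by positivity
      linarith
    · have : t + 1 ≤ mv sat l := by omega
      have : (t + 1 : ℝ) ≤ mv sat l := by exact_mod_cast this
      linarith
  have P6 := (abs_le.1 (EV_compare h3 m0)).1
  have P7 : 3 * (m0 : ℝ) / n ≤ 3 * (α + 2) := by
    rw [div_le_iff₀ (by positivity)]; linarith
  have P8 := EV_mono (show 0 < n by omega) hm0m
  have P9 := mul_le_mul_of_nonneg_left (P1.trans P4) (show (0 : ℝ) ≤ t + 1 by positivity)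
  linarith

/-- `EV n m ≤ EV n m₀ ≤ EVd n m₀ + 3c ≤ m₀ (1 - satProb 3 n m₀) + 3 c` for `m₀ = ⌊c n⌋₊` -/
theorem EV_small {α : ℝ} (hα : IsSharpThreshold (satProb 3) α) {c : ℝ} (h0 : 0 ≤ c) (hc : c < α)
    {ε : ℝ} (hε : 0 < ε) : ∀ᶠ n : ℕ in atTop, ∀ m : ℕ, (m : ℝ) ≤ c * n → EV n m ≤ ε * n := by
  classical
  have h1 := ((hα c h0).1 hc).eventually
    (lt_mem_nhds (show 1 - ε / (2 * (c + 1)) < 1 by rw [sub_lt_self_iff]; positivity))
  filter_upwards [h1, eventually_ge_atTop 3,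
    (tendsto_natCast_atTop_atTop.const_mul_atTop (half_pos hε)).eventually_ge_atTop (3 * c)]
    with n hn h3 hA m hm
  have := R153A.nonempty_clause h3
  have hn1 : (3 : ℝ) ≤ n := by exact_mod_cast h3
  set m0 := ⌊c * n⌋₊
  have hm0 : m ≤ m0 := Nat.le_floor hm
  have hm1 : (m0 : ℝ) ≤ c * n := Nat.floor_le (by positivity)
  clear_value m0
  have P1 := EV_mono (show 0 < n by omega) hm0
  have P2 := (abs_le.1 (EV_compare h3 m0)).2
  have P3 : 3 * (m0 : ℝ) / n ≤ 3 * c := by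
    rw [div_le_iff₀ (by positivity)]; linarith
  have P4 : EVd n m0 + m0 * satProb 3 n m0 ≤ m0 := by
    unfold EVd
    rw [satProb_eq_EL, ← EL_mul_left, ← EL_add]
    refine le_trans (EL_mono' _ _ fun l hl _ => ?_)
      (EL_const (S := (univ : Finset (Clause 3 n))) Finset.univ_nonempty m0 (m0 : ℝ)).le
    split_ifs with hh
    · rw [(mv_eq_zero sat l).2 hh]; simp
    · have := mv_le_length sat l
      rw [hl] at this
      have : (mv sat l : ℝ) ≤ m0 := by exact_mod_cast this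
      linarith
  have P5 : (m0 : ℝ) * (1 - satProb 3 n m0) ≤ (c + 1) * n * (ε / (2 * (c + 1))) :=
    mul_le_mul (by linarith) (by linarith) (by linarith [satProb_le_one 3 n m0]) (by positivity)
  have e : (c + 1) * n * (ε / (2 * (c + 1))) = ε / 2 * n := by field_simp
  linarith

end Crest.Agent.R153
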