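import Crest.Agent.R153.Basic

/-! Entropy method for list expectations (task R153 Herbst). -/

set_option autoImplicit false

namespace Crest.Agent.R153

open Finset

theorem EL_pos {α : Type} {S : Finset α} (hS : S.Nonempty) : ∀ (M : ℕ) {φ : List α → ℝ},
    (∀ l, 0 < φ l) → 0 < EL S M φ
  | 0, _, h => h []
  | M + 1, _, h => div_pos (sum_pos (fun c _ => EL_pos hS M fun l => h (c :: l)) hS)
      (by exact_mod_cast hS.card_pos)

theorem EL_sub {α : Type} (S : Finset α) (M : ℕ) (φ ψ : List α → ℝ) :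
    EL S M (fun l => φ l - ψ l) = EL S M φ - EL S M ψ := by
  have h := EL_add S M (fun l => φ l - ψ l) ψ
  simp only [sub_add_cancel] at h
  linarith

theorem av_sub {α : Type} (S : Finset α) (f g : α → ℝ) :
    av S (fun a => f a - g a) = av S f - av S g := by
  unfold av; rw [sum_sub_distrib, sub_div]

theorem young {x c : ℝ} (hx : 0 < x) (hc : 0 < c) {u : ℝ} (hu : 0 < u) :
    x * Real.log u ≤ x * Real.log (x / c) - x + u * c := by
  have h1 := Real.log_le_sub_one_of_pos (show 0 < u * c / x by positivity)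
  rw [Real.log_div (by positivity) hx.ne', Real.log_mul hu.ne' hc.ne'] at h1
  rw [Real.log_div hx.ne' hc.ne']
  have h2 := mul_le_mul_of_nonneg_left h1 hx.le
  have h3 : x * (u * c / x - 1) = u * c - x := by field_simp
  linarith

theorem EL_hasDerivAt {α : Type} (S : Finset α) (x : ℝ) : ∀ (M : ℕ) (φ : ℝ → List α → ℝ)
    (φ' : List α → ℝ), (∀ l, HasDerivAt (fun t => φ t l) (φ' l) x) →
    HasDerivAt (fun t => EL S M (φ t)) (EL S M φ') x
  | 0, _, _, h => h []
  | M + 1, φ, φ', h => by
      simp only [EL, av]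
      refine HasDerivAt.div_const ?_ _
      exact HasDerivAt.fun_sum fun c _ =>
        EL_hasDerivAt S x M (fun t l => φ t (c :: l)) (fun l => φ' (c :: l)) fun l => h (c :: l)

/-- the Efron–Stein inequality -/
theorem efron_stein {α : Type} {S : Finset α} (hS : S.Nonempty) (M : ℕ) (f : List α → ℝ)
    (c : ℕ → List α → ℝ) :
    EL S M (fun l => f l ^ 2) - EL S M f ^ 2 ≤
      ∑ i ∈ range M, EL S M (fun l => (f l - c i (l.eraseIdx i)) ^ 2) := by
  induction M generalizing f c with
  | zero => simp [EL]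
  | succ M ih =>
    set g : α → ℝ := fun a => EL S M fun l => f (a :: l) with hg
    set m : ℝ := av S g with hm
    have h1 : av S (fun a => EL S M (fun l => f (a :: l) ^ 2) - g a ^ 2) ≤
        av S (fun a => ∑ i ∈ range M, EL S M
          (fun l => (f (a :: l) - c (i + 1) (a :: l.eraseIdx i)) ^ 2)) :=
      av_mono fun a _ => ih (fun l => f (a :: l)) (fun i l => c (i + 1) (a :: l))
    have h2 : av S (fun a => 2 * (g a - m) * (g a - EL S M (c 0)) - (g a - m) ^ 2) ≤
        av S (fun a => EL S M (fun l => (f (a :: l) - c 0 l) ^ 2)) := by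
      refine av_mono fun a _ => ?_
      have h3 : EL S M (fun l => 2 * (g a - m) * (f (a :: l) - c 0 l) - (g a - m) ^ 2) ≤
          EL S M (fun l => (f (a :: l) - c 0 l) ^ 2) :=
        EL_mono S M fun l => by nlinarith [sq_nonneg (f (a :: l) - c 0 l - (g a - m))]
      rwa [EL_sub, EL_mul_left, EL_sub, EL_const hS] at h3
    have h4 : av S (fun a => 2 * (g a - m) * (g a - EL S M (c 0)) - (g a - m) ^ 2) =
        av S (fun a => g a ^ 2) - m ^ 2 := by
      have : (fun a => 2 * (g a - m) * (g a - EL S M (c 0)) - (g a - m) ^ 2) =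
          fun a => g a ^ 2 + ((-2 * EL S M (c 0)) * g a + (2 * m * EL S M (c 0) - m ^ 2)) := by
        funext a; ring
      rw [this, av_add, av_add, av_mul_left, av_const hS, ← hm]
      ring
    rw [av_sub, av_sum] at h1
    rw [sum_range_succ']
    simp only [EL, List.eraseIdx_cons_succ, List.eraseIdx_cons_zero]
    linarith

theorem sq_le_om_zero {a b : ℕ} (h : b ≤ a) : ((a : ℝ) - b) ^ 2 ≤ 2 * om 0 a b := by
  obtain ⟨d, hd⟩ := Nat.exists_eq_add_of_le h
  induction d generalizing b with
  | zero => simp [hd, om]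
  | succ d ih =>
    have h1 := ih (b := b + 1) (by omega) (by omega)
    have h2 : (a : ℝ) = b + (d + 1) := by exact_mod_cast hd
    have h3 : (0 : ℝ) ≤ d := by positivity
    unfold om at h1 ⊢
    rw [sum_eq_sum_Ico_succ_bot (by omega)]
    simp only [zero_mul, Real.exp_zero, mul_one] at h1 ⊢
    push_cast at h1
    nlinarith

/-- Tensorization of entropy.  Induction on `M` (all `f`, `c`).  For `M + 1` let
`g a = EL M (f (a :: ·))`, `m = av g`.  `Ent f = av_a [Ent (f (a :: ·))] + (av (g log g) - m log m)`.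
The first part is bounded by the induction hypothesis (indices `i + 1`, `c' i l = c (i+1) (a :: l)`,
`(a :: l).eraseIdx (i+1) = a :: l.eraseIdx i`).  For the second use Young's inequality
`x γ ≤ x log (x/c) - x + c e^γ` (`x, c > 0`) with `x = f (a :: l)`, `γ = log (g a / m)`,
`c = c 0 l`: `E[x γ] = av (g log g) - m log m` and `E[c e^γ] = E c`. -/
theorem ent_tensor {α : Type} {S : Finset α} (hS : S.Nonempty) (M : ℕ) (f : List α → ℝ)
    (c : ℕ → List α → ℝ) (hf : ∀ l, 0 < f l) (hc : ∀ i l, 0 < c i l) :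
    EL S M (fun l => f l * Real.log (f l)) - EL S M f * Real.log (EL S M f) ≤
      ∑ i ∈ range M, EL S M (fun l =>
        f l * Real.log (f l / c i (l.eraseIdx i)) - f l + c i (l.eraseIdx i)) := by
  induction M generalizing f c with
  | zero => simp [EL]
  | succ M ih =>
    set g : α → ℝ := fun a => EL S M fun l => f (a :: l) with hg
    set m : ℝ := av S g with hm
    have hg0 : ∀ a, 0 < g a := fun a => EL_pos hS M fun l => hf _
    have hm0 : 0 < m := EL_pos hS (M + 1) hf
    have h1 : av S (fun a => EL S M (fun l => f (a :: l) * Real.log (f (a :: l))) -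
        g a * Real.log (g a)) ≤
        av S (fun a => ∑ i ∈ range M, EL S M (fun l => f (a :: l) *
          Real.log (f (a :: l) / c (i + 1) (a :: l.eraseIdx i)) - f (a :: l) +
            c (i + 1) (a :: l.eraseIdx i))) :=
      av_mono fun a _ => ih (fun l => f (a :: l)) (fun i l => c (i + 1) (a :: l))
        (fun l => hf _) (fun i l => hc _ _)
    have h2 : av S (fun a => g a * Real.log (g a) + ((-Real.log m - EL S M (c 0) / m) * g a +
          EL S M (c 0))) ≤
        av S (fun a => EL S M (fun l => f (a :: l) * Real.log (f (a :: l) / c 0 l) - f (a :: l) +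
          c 0 l)) := by
      refine av_mono fun a _ => ?_
      have h3 : EL S M (fun l => Real.log (g a / m) * f (a :: l) + (1 - g a / m) * c 0 l) ≤
          EL S M (fun l => f (a :: l) * Real.log (f (a :: l) / c 0 l) - f (a :: l) + c 0 l) :=
        EL_mono S M fun l => by
          have := young (hf (a :: l)) (hc 0 l) (div_pos (hg0 a) hm0)
          linarith
      rw [EL_add, EL_mul_left, EL_mul_left, Real.log_div (hg0 a).ne' hm0.ne'] at h3
      refine le_trans (le_of_eq ?_) h3
      simp only [hg]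
      ring
    rw [av_add, av_add, av_mul_left, av_const hS, ← hm] at h2
    have h4 : (-Real.log m - EL S M (c 0) / m) * m + EL S M (c 0) = -(m * Real.log m) := by
      field_simp
      ring
    rw [av_sub, av_sum] at h1
    rw [sum_range_succ']
    simp only [EL, List.eraseIdx_cons_succ, List.eraseIdx_cons_zero]
    linarith

/-- `e^{λ a} - e^{λ b} - λ (a-b) e^{λ b} = λ² ∫_b^a (a-x) e^{λ x} dx ≤ λ² e^λ ω(a,b)`; a discrete
proof: induction on `a - b` from the `b` side: the difference of the left sides for `b` and `b+1` is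
`e^{λ b}((e^λ - 1 - λ) + λ (a-b-1)(e^λ - 1)) ≤ 3 λ² (a-b) e^{λ b}` for `0 ≤ λ ≤ 1`. -/
theorem exp_sub_le_om {lam : ℝ} (h0 : 0 ≤ lam) (h1 : lam ≤ 1) {a b : ℕ} (h : b ≤ a) :
    Real.exp (lam * a) - Real.exp (lam * b) - lam * ((a : ℝ) - b) * Real.exp (lam * b) ≤
      3 * lam ^ 2 * om lam a b := by
  obtain ⟨d, hd⟩ := Nat.exists_eq_add_of_le h
  have e1 : Real.exp lam - 1 - lam ≤ lam ^ 2 :=
    (le_abs_self _).trans (Real.abs_exp_sub_one_sub_id_le (by rwa [abs_of_nonneg h0]))
  have e2 : Real.exp lam - 1 ≤ 2 * lam := by nlinarith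
  induction d generalizing b with
  | zero => simp [hd, om]
  | succ d ih =>
    have h2 := ih (b := b + 1) (by omega) (by omega)
    have h3 : (a : ℝ) = b + (d + 1) := by exact_mod_cast hd
    have h4 : (0 : ℝ) ≤ d := by positivity
    unfold om at h2 ⊢
    rw [sum_eq_sum_Ico_succ_bot (by omega)]
    push_cast at h2
    rw [mul_add lam, mul_one, Real.exp_add] at h2
    have h5 := Real.exp_pos (lam * b)
    have h6 : (Real.exp lam - 1 - lam) + lam * d * (Real.exp lam - 1) ≤ 3 * lam ^ 2 * (d + 1) := by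
      have : lam * d * (Real.exp lam - 1) ≤ lam * d * (2 * lam) :=
        mul_le_mul_of_nonneg_left e2 (by positivity)
      nlinarith [sq_nonneg lam, mul_nonneg (sq_nonneg lam) h4]
    have h7 := mul_le_mul_of_nonneg_left h6 h5.le
    have h8 : (a : ℝ) - b = d + 1 := by linarith
    have h9 : (a : ℝ) - (b + 1) = d := by linarith
    rw [h8]
    rw [h9] at h2
    nlinarith

/-- Herbst's argument.  `ent_tensor` with `f = e^{λ L}`, `c i l' = e^{λ (L l' + 1)}` and
`exp_sub_le_om` give `λ F'(λ) - F(λ) ≤ 3 C λ²` for `F(λ) = log E e^{λ L}` (`λ ↦ EL S M (e^{λ L})` has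
derivative `EL S M (L e^{λ L})`: induction on `M`), so `F(λ)/λ - 3 C λ` is antitone on `(0, λ₀]`
and tends to `F'(0) = E L` at `0⁺`.  Variance: with `Y = L - E L`, `|Y| ≤ B` on the lists that
matter, `e^x ≥ 1 + x + x²/2 + x³/6` gives
`1 + λ² Var/2 - λ³ B³/6 ≤ e^{3 C λ²}`; let `λ → 0⁺` (or prove Efron–Stein directly from the case
`λ = 0` of the hypothesis: `(a-b)² ≤ 2 ω₀(a,b)`). -/
theorem herbst {α : Type} {S : Finset α} (hS : S.Nonempty) (M : ℕ) (L : List α → ℕ) {C lam0 : ℝ}
    (hC : 0 ≤ C) (h0 : 0 < lam0) (h1 : lam0 ≤ 1) (hL : ∀ l i, L l ≤ L (l.eraseIdx i) + 1)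
    (h : ∀ lam : ℝ, 0 ≤ lam → lam ≤ lam0 →
      ∑ i ∈ range M, EL S M (fun l => om lam (L (l.eraseIdx i) + 1) (L l)) ≤
        C * EL S M fun l => Real.exp (lam * L l)) :
    (∀ lam : ℝ, 0 ≤ lam → lam ≤ lam0 → Real.log (EL S M fun l => Real.exp (lam * L l)) ≤
        lam * EL S M (fun l => (L l : ℝ)) + 3 * C * lam ^ 2) ∧
      EL S M (fun l => (L l : ℝ) ^ 2) - EL S M (fun l => (L l : ℝ)) ^ 2 ≤ 6 * C := by
  set Z : ℝ → ℝ := fun t => EL S M fun l => Real.exp (t * L l) with hZ
  set Z' : ℝ → ℝ := fun t => EL S M fun l => (L l : ℝ) * Real.exp (t * L l) with hZ'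
  have hZ0 : ∀ t, 0 < Z t := fun t => EL_pos hS M fun l => Real.exp_pos _
  have hd : ∀ t, HasDerivAt Z (Z' t) t := fun t =>
    EL_hasDerivAt S t M (fun t l => Real.exp (t * L l)) _ fun l => by
      simpa [mul_comm] using ((hasDerivAt_id t).mul_const (L l : ℝ)).exp
  have hz : Z 0 = 1 := by simp [hZ, EL_const hS]
  have hz' : Z' 0 = EL S M (fun l => (L l : ℝ)) := by simp [hZ']
  have hent : ∀ t, 0 ≤ t → t ≤ lam0 → t * Z' t - Z t * Real.log (Z t) ≤ 3 * t ^ 2 * (C * Z t) := by
    intro t ht ht'
    have h2 := ent_tensor hS M (fun l => Real.exp (t * L l))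
      (fun _ l => Real.exp (t * ((L l + 1 : ℕ) : ℝ))) (fun _ => Real.exp_pos _)
      (fun _ _ => Real.exp_pos _)
    have h3 : EL S M (fun l => Real.exp (t * L l) * Real.log (Real.exp (t * L l))) = t * Z' t := by
      rw [hZ']
      simp only
      rw [← EL_mul_left]
      exact EL_congr S M fun l _ _ => by rw [Real.log_exp]; ring
    rw [h3] at h2
    refine h2.trans (le_trans ?_ (mul_le_mul_of_nonneg_left (h t ht ht') (by positivity)))
    rw [mul_sum]
    refine sum_le_sum fun i _ => ?_
    rw [← EL_mul_left]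
    refine EL_mono S M fun l => ?_
    have h4 := exp_sub_le_om ht (ht'.trans h1) (hL l i)
    rw [← Real.exp_sub, Real.log_exp]
    linarith
  refine ⟨fun lam hl hl' => ?_, ?_⟩
  · rcases hl.eq_or_lt with rfl | hl0
    · simp [EL_const hS]
    have hH : ∀ t, 0 < t → HasDerivAt (fun t => Real.log (Z t) / t - 3 * C * t)
        ((Z' t / Z t * t - Real.log (Z t) * 1) / t ^ 2 - 3 * C * 1) t := fun t ht =>
      (((hd t).log (hZ0 t).ne').div (hasDerivAt_id t) ht.ne').sub
        ((hasDerivAt_id t).const_mul (3 * C))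
    have hanti : AntitoneOn (fun t => Real.log (Z t) / t - 3 * C * t) (Set.Ioc 0 lam0) := by
      refine antitoneOn_of_deriv_nonpos (convex_Ioc _ _)
        (fun t ht => (hH t ht.1).continuousAt.continuousWithinAt)
        (fun t ht => (hH t (interior_subset ht).1).differentiableAt.differentiableWithinAt)
        fun t ht => ?_
      have ht' := interior_subset ht
      rw [(hH t ht'.1).deriv]
      have h2 := hent t ht'.1.le ht'.2
      have h3 := hZ0 t
      have h4 := ht'.1
      have h5 : Z' t / Z t * t - Real.log (Z t) * 1 ≤ 3 * C * t ^ 2 := by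
        have : Z' t / Z t * t - Real.log (Z t) * 1 =
            (t * Z' t - Z t * Real.log (Z t)) / Z t := by field_simp
        rw [this, div_le_iff₀ h3]
        linarith
      rw [sub_nonpos, div_le_iff₀ (by positivity)]
      linarith
    have hlim : Filter.Tendsto (fun t => Real.log (Z t) / t - 3 * C * t) (nhdsWithin 0 (Set.Ioi 0))
        (nhds (EL S M (fun l => (L l : ℝ)))) := by
      have h2 := ((hd 0).log (hZ0 0).ne').tendsto_slope_zero_right
      have h3 : Filter.Tendsto (fun t : ℝ => 3 * C * t) (nhdsWithin 0 (Set.Ioi 0)) (nhds 0) := by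
        have : Continuous fun t : ℝ => 3 * C * t := by fun_prop
        simpa using (this.tendsto 0).mono_left nhdsWithin_le_nhds
      have h4 := h2.sub h3
      simp only [hz, hz', zero_add, Real.log_one, sub_zero, smul_eq_mul, div_one] at h4
      refine h4.congr fun t => ?_
      rw [div_eq_inv_mul]
    have h2 : Real.log (Z lam) / lam - 3 * C * lam ≤ EL S M (fun l => (L l : ℝ)) := by
      refine ge_of_tendsto hlim ?_
      filter_upwards [Ioc_mem_nhdsGT hl0] with t ht
      exact hanti ⟨ht.1, ht.2.trans hl'⟩ ⟨hl0, hl'⟩ ht.2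
    have h3 : Real.log (Z lam) / lam ≤ EL S M (fun l => (L l : ℝ)) + 3 * C * lam := by linarith
    rw [div_le_iff₀ hl0] at h3
    show Real.log (Z lam) ≤ _
    linarith
  · have h2 := efron_stein hS M (fun l => (L l : ℝ)) (fun _ l => ((L l + 1 : ℕ) : ℝ))
    have h3 := h 0 le_rfl h0.le
    have h4 : EL S M (fun l => Real.exp (0 * L l)) = 1 := hz
    rw [h4, mul_one] at h3
    have h5 : ∑ i ∈ range M, EL S M (fun l => ((L l : ℝ) - ((L (l.eraseIdx i) + 1 : ℕ) : ℝ)) ^ 2) ≤
        2 * ∑ i ∈ range M, EL S M (fun l => om 0 (L (l.eraseIdx i) + 1) (L l)) := by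
      rw [mul_sum]
      refine sum_le_sum fun i _ => ?_
      rw [← EL_mul_left]
      refine EL_mono S M fun l => ?_
      have := sq_le_om_zero (hL l i)
      linarith
    linarith

end Crest.Agent.R153
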