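import Crest.Agent.R153.Basic
import Crest.Agent.R153A.Mgf

/-! Link between list expectations and `satProb`.  (The variance bound S0217 and the bound on the
moment generating function are in `Crest.Agent.R153A.Mgf`.) -/

set_option autoImplicit false

namespace Crest.Agent.R153

open Crest.ProbabilityR.RandomSAT Finset BigOperators

theorem av_univ {α : Type} [Fintype α] (f : α → ℝ) : av (univ : Finset α) f = 𝔼 a, f a := by
  rw [Finset.expect_eq_sum_div_card]; rfl

/-- `EL univ M` is the uniform average over `Fin M → α` -/
theorem EL_univ_eq {α : Type} [Fintype α] (M : ℕ) (φ : List α → ℝ) :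
    EL (univ : Finset α) M φ = av (univ : Finset (Fin M → α)) fun F => φ (List.ofFn F) := by
  induction M generalizing φ with
  | zero => simp [EL, av]
  | succ M ih =>
    simp only [EL, ih, av_univ]
    rw [← Fintype.expect_equiv (Fin.consEquiv fun _ => α) (fun x => φ (x.1 :: List.ofFn x.2)),
      R153A.expect_prod']
    intro x
    simp [Fin.consEquiv, List.ofFn_succ]

open Classical in
theorem satProb_eq_EL (k n m : ℕ) :
    satProb k n m =
      EL (univ : Finset (Clause k n)) m fun l => if ∃ σ, ∀ c ∈ l, σ ∈ sat c then 1 else 0 := by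
  rw [EL_univ_eq, av_univ, R153A.satProb_eq]
  refine Finset.expect_congr rfl fun F _ => ?_
  rw [← R153A.ind_eq_ite]
  refine R153A.ind_congr ?_
  simp [Satisfiable, sat, List.mem_ofFn']

theorem satProb_nonneg (k n m : ℕ) : 0 ≤ satProb k n m := R153A.satProb_nonneg k n m

theorem satProb_le_one (k n m : ℕ) : satProb k n m ≤ 1 := R153A.satProb_le_one k n m

theorem satProb_anti {k n : ℕ} (hn : k ≤ n) {m m' : ℕ} (h : m ≤ m') :
    satProb k n m' ≤ satProb k n m := R153A.satProb_anti hn h

/-- first moment bound: a fixed assignment violates a uniform clause with probability `2^{-k}` -/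
theorem satProb_le_pow {k n : ℕ} (hn : k ≤ n) (m : ℕ) :
    satProb k n m ≤ 2 ^ n * (1 - 1 / 2 ^ k) ^ m := R153A.satProb_le_pow hn m

end Crest.Agent.R153
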