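import Crest.Agent.R153.Basic

/-! Elementary facts on `om` and `life` (task R153 Omega+Prob). -/

set_option autoImplicit false

namespace Crest.Agent.R153

open Crest.ProbabilityR.RandomSAT Finset

/-- more terms, larger weights -/
theorem om_mono (lam : ℝ) {a a' b b' : ℕ} (ha : a ≤ a') (hb : b' ≤ b) :
    om lam a b ≤ om lam a' b' := by
  unfold om
  have ha' : (a : ℝ) ≤ a' := by exact_mod_cast ha
  calc ∑ j ∈ Finset.Ico b a, ((a : ℝ) - j) * Real.exp (lam * j)
      ≤ ∑ j ∈ Finset.Ico b a, ((a' : ℝ) - j) * Real.exp (lam * j) :=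
        sum_le_sum fun j _ => mul_le_mul_of_nonneg_right (by linarith) (Real.exp_pos _).le
    _ ≤ ∑ j ∈ Finset.Ico b' a', ((a' : ℝ) - j) * Real.exp (lam * j) := by
        refine sum_le_sum_of_subset_of_nonneg (Ico_subset_Ico hb ha) fun j hj _ => ?_
        have h1 := (mem_Ico.1 hj).2
        have h2 : (j : ℝ) ≤ a' := by exact_mod_cast h1.le
        exact mul_nonneg (by linarith) (Real.exp_pos _).le

theorem om_succ_succ (lam : ℝ) (a b : ℕ) : om lam (a + 1) (b + 1) = Real.exp lam * om lam a b := by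
  unfold om
  rw [← Finset.sum_Ico_add' (fun j : ℕ => (((a + 1 : ℕ) : ℝ) - j) * Real.exp (lam * j)) b a 1,
    mul_sum]
  refine sum_congr rfl fun j _ => ?_
  push_cast
  rw [mul_add, mul_one, Real.exp_add]
  ring

theorem om_succ_zero (lam : ℝ) (a : ℕ) :
    om lam (a + 1) 0 = (a + 1 : ℝ) + Real.exp lam * om lam a 0 := by
  rw [← om_succ_succ]
  unfold om
  rw [Finset.sum_eq_sum_Ico_succ_bot (Nat.succ_pos a)]
  simp

theorem om_split (lam : ℝ) {a b c : ℕ} (hbc : c ≤ b) (hab : b ≤ a) :
    om lam a c = om lam a b + om lam b c +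
      ((a : ℝ) - b) * ∑ j ∈ Finset.Ico c b, Real.exp (lam * j) := by
  unfold om
  rw [← Finset.sum_Ico_consecutive _ hbc hab, mul_sum, add_assoc, ← sum_add_distrib, add_comm]
  congr 1
  exact sum_congr rfl fun j _ => by ring

theorem om_sq_le {lam : ℝ} (hl : 0 ≤ lam) : ∀ (E c b : ℕ), b = c + E →
    (∑ j ∈ Finset.Ico c b, Real.exp (lam * j)) ^ 2 ≤ 2 * Real.exp (lam * b) * om lam b c
  | 0, c, b, h => by
      subst h
      simp [om]
  | E + 1, c, b, h => by
      have ih := om_sq_le hl E (c + 1) b (by omega)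
      have hcb : c < b := by omega
      unfold om at ih ⊢
      rw [Finset.sum_eq_sum_Ico_succ_bot hcb, Finset.sum_eq_sum_Ico_succ_bot hcb]
      have hT : ∑ j ∈ Finset.Ico (c + 1) b, Real.exp (lam * j) ≤ E * Real.exp (lam * b) := by
        have h1 : ∀ j ∈ Finset.Ico (c + 1) b, Real.exp (lam * j) ≤ Real.exp (lam * b) := by
          intro j hj
          have h4 : (j : ℝ) ≤ b := by exact_mod_cast (mem_Ico.1 hj).2.le
          exact Real.exp_le_exp.2 (mul_le_mul_of_nonneg_left h4 hl)
        refine (sum_le_card_nsmul _ _ _ h1).trans (le_of_eq ?_)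
        rw [Nat.card_Ico, nsmul_eq_mul]
        congr 2
        omega
      have hc : Real.exp (lam * c) ≤ Real.exp (lam * b) := by
        have h4 : (c : ℝ) ≤ b := by exact_mod_cast hcb.le
        exact Real.exp_le_exp.2 (mul_le_mul_of_nonneg_left h4 hl)
      have hb : (b : ℝ) - c = E + 1 := by
        rw [h]; push_cast; ring
      rw [hb]
      have hx := Real.exp_pos (lam * c)
      have hy := Real.exp_pos (lam * b)
      set T := ∑ j ∈ Finset.Ico (c + 1) b, Real.exp (lam * j)
      set O := ∑ j ∈ Finset.Ico (c + 1) b, ((b : ℝ) - j) * Real.exp (lam * j)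
      set x := Real.exp (lam * c)
      set y := Real.exp (lam * b)
      have h5 : x * T ≤ x * (E * y) := mul_le_mul_of_nonneg_left hT hx.le
      have h6 : x * x ≤ x * y := mul_le_mul_of_nonneg_left hc hx.le
      have h7 : 0 ≤ x * y := by positivity
      nlinarith

theorem om_ge_sq {lam : ℝ} (hl : 0 ≤ lam) : ∀ (D b a : ℕ), a = b + D →
    Real.exp (lam * b) * ((a : ℝ) - b) ^ 2 ≤ 2 * om lam a b
  | 0, b, a, h => by
      subst h
      simp [om]
  | D + 1, b, a, h => by
      have ih := om_ge_sq hl D (b + 1) a (by omega)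
      have hba : b < a := by omega
      unfold om at ih ⊢
      rw [Finset.sum_eq_sum_Ico_succ_bot hba]
      have hc : Real.exp (lam * b) ≤ Real.exp (lam * (b + 1 : ℕ)) := by
        refine Real.exp_le_exp.2 (mul_le_mul_of_nonneg_left ?_ hl)
        push_cast; linarith
      have hb : (a : ℝ) - b = D + 1 := by
        rw [h]; push_cast; ring
      have hb' : (a : ℝ) - (b + 1 : ℕ) = D := by
        rw [h]; push_cast; ring
      rw [hb'] at ih
      rw [hb]
      have hx := Real.exp_pos (lam * b)
      have h5 : Real.exp (lam * b) * (D : ℝ) ^ 2 ≤ Real.exp (lam * (b + 1 : ℕ)) * (D : ℝ) ^ 2 :=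
        mul_le_mul_of_nonneg_right hc (sq_nonneg _)
      nlinarith

/-- Quasi-triangle inequality.  If `b > a` or `c > b` use `om_mono`.  For `c ≤ b ≤ a`:
`ω(a,c) = ω(a,b) + ω(b,c) + (a-b) Σ_{c ≤ j < b} e^{λ j}`.  With `x = e^{-λ} ≤ 1`, `D = a-b`,
`s = Σ_{1 ≤ i ≤ b-c} x^i`: the last term is `e^{λ b} D s ≤ e^{λ b} (D²/2 + s²/2)`,
`ω(a,b) ≥ e^{λ b} D²/2` and `s² = Σ_{i,j} x^{i+j} ≤ 2 Σ_i i x^i`, `ω(b,c) = e^{λ b} Σ_i i x^i`
(the bound on `s²` is an easy induction on `b-c`). -/
theorem om_tri {lam : ℝ} (hl : 0 ≤ lam) (a b c : ℕ) :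
    om lam a c ≤ 2 * om lam a b + 2 * om lam b c := by
  have h1 := om_nonneg lam a b
  have h2 := om_nonneg lam b c
  rcases le_total a b with hab | hab
  · have := om_mono lam hab (le_refl c)
    linarith
  rcases le_total b c with hbc | hbc
  · have := om_mono lam (le_refl a) hbc
    linarith
  have hsplit := om_split lam hbc hab
  have hT := om_sq_le hl (b - c) c b (by omega)
  have hD := om_ge_sq hl (a - b) b a (by omega)
  set T := ∑ j ∈ Finset.Ico c b, Real.exp (lam * j) with hTdef
  set E := Real.exp (lam * b) with hE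
  have hEpos : 0 < E := Real.exp_pos _
  set D : ℝ := (a : ℝ) - b with hDdef
  have key : D * T ≤ om lam a b + om lam b c := by
    have h3 : E * (D * T) ≤ E * (om lam a b + om lam b c) := by
      have h4 : E * (E * D ^ 2) ≤ E * (2 * om lam a b) :=
        mul_le_mul_of_nonneg_left hD hEpos.le
      nlinarith [sq_nonneg (E * D - T)]
    exact le_of_mul_le_mul_left h3 hEpos
  linarith

theorem om_le_sq {lam : ℝ} (hl : 0 ≤ lam) (a b : ℕ) :
    om lam a b ≤ ((a - b : ℕ) : ℝ) ^ 2 * Real.exp (lam * a) := by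
  unfold om
  have h : ∀ j ∈ Finset.Ico b a, ((a : ℝ) - j) * Real.exp (lam * j) ≤
      ((a - b : ℕ) : ℝ) * Real.exp (lam * a) := by
    intro j hj
    obtain ⟨h1, h2⟩ := mem_Ico.1 hj
    have h3 : (b : ℝ) ≤ j := by exact_mod_cast h1
    have h4 : (j : ℝ) ≤ a := by exact_mod_cast h2.le
    rw [Nat.cast_sub (by omega)]
    exact mul_le_mul (by linarith) (Real.exp_le_exp.2 (mul_le_mul_of_nonneg_left h4 hl))
      (Real.exp_pos _).le (by linarith)
  refine (sum_le_card_nsmul _ _ _ h).trans (le_of_eq ?_)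
  rw [Nat.card_Ico, nsmul_eq_mul]
  ring

theorem life_empty {k n : ℕ} (l : List (Clause k n)) : life (∅ : Set (Asg n)) l = 0 := by
  cases l <;> simp [life]

theorem life_le_eraseIdx {k n : ℕ} (S : Set (Asg n)) (l : List (Clause k n)) (i : ℕ) :
    life S l ≤ life S (l.eraseIdx i) + 1 := by
  induction l generalizing S i with
  | nil => simp
  | cons c l ih =>
    cases i with
    | zero =>
      simp only [List.eraseIdx_cons_zero, life]
      split_ifs
      · exact Nat.succ_le_succ (life_mono l Set.inter_subset_left)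
      · exact Nat.zero_le _
    | succ i =>
      simp only [List.eraseIdx_cons_succ, life]
      split_ifs
      · exact Nat.succ_le_succ (ih _ i)
      · exact Nat.zero_le _

/-- putting the clause `c` first can only shorten the life -/
theorem life_inter_le_insertIdx {k n : ℕ} (S : Set (Asg n)) (l : List (Clause k n)) (i : ℕ)
    (hi : i ≤ l.length) (c : Clause k n) : life (S ∩ sat c) l ≤ life S (l.insertIdx i c) := by
  induction i generalizing S l with
  | zero =>
    simp only [List.insertIdx_zero, life]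
    split_ifs with h
    · exact Nat.le_succ _
    · rw [Set.not_nonempty_iff_eq_empty.1 h, Set.empty_inter, life_empty]
  | succ i ih =>
    cases l with
    | nil => simp at hi
    | cons d l =>
      simp only [List.insertIdx_succ_cons, life]
      by_cases h : (S ∩ sat c).Nonempty
      · have hS : S.Nonempty := h.mono Set.inter_subset_left
        simp only [h, hS, if_true]
        have := ih (S ∩ sat d) l (by simpa using hi)
        rw [Set.inter_right_comm]
        exact Nat.succ_le_succ this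
      · simp only [h, if_false]
        exact Nat.zero_le _

theorem Psi_mono_set {k n : ℕ} {lam : ℝ} (hl : 0 ≤ lam) (C : Finset (Clause k n))
    {S T : Set (Asg n)} (h : S ⊆ T) (M : ℕ) : Psi lam C S M ≤ Psi lam C T M := by
  refine EL_mono C M fun l => Real.exp_le_exp.2 (mul_le_mul_of_nonneg_left ?_ hl)
  exact_mod_cast life_mono l h

theorem life_le_append {k n : ℕ} : ∀ (l : List (Clause k n)) (S : Set (Asg n)) (c : Clause k n),
    life S l ≤ life S (l ++ [c])
  | [], S, c => by
      simp only [List.nil_append, life]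
      split_ifs <;> omega
  | d :: l, S, c => by
      simp only [List.cons_append, life]
      split_ifs
      · exact Nat.succ_le_succ (life_le_append l _ c)
      · exact le_refl _

theorem EL_le_succ {α : Type} {S : Finset α} (hS : S.Nonempty) : ∀ (M : ℕ) {φ ψ : List α → ℝ},
    (∀ l c, φ l ≤ ψ (l ++ [c])) → EL S M φ ≤ EL S (M + 1) ψ
  | 0, φ, ψ, h => by
      simp only [EL]
      rw [← av_const hS (φ [])]
      exact av_mono fun c _ => h [] c
  | M + 1, φ, ψ, h => by
      have h1 : EL S (M + 1 + 1) ψ = av S fun d => EL S (M + 1) fun l => ψ (d :: l) := rfl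
      have h2 : EL S (M + 1) φ = av S fun d => EL S M fun l => φ (d :: l) := rfl
      rw [h1, h2]
      exact av_mono fun d _ => EL_le_succ hS M fun l c => h (d :: l) c

/-- induction on `M` (generalizing `S`) for `M' = M + 1` -/
theorem Psi_mono_len {k n : ℕ} {lam : ℝ} (hl : 0 ≤ lam) {C : Finset (Clause k n)}
    (hC : C.Nonempty) (S : Set (Asg n)) {M M' : ℕ} (h : M ≤ M') :
    Psi lam C S M ≤ Psi lam C S M' := by
  induction M', h using Nat.le_induction with
  | base => exact le_refl _
  | succ M' _ ih =>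
    refine ih.trans (EL_le_succ hC M' fun l c => ?_)
    refine Real.exp_le_exp.2 (mul_le_mul_of_nonneg_left ?_ hl)
    exact_mod_cast life_le_append l S c

theorem one_le_Psi {k n : ℕ} {lam : ℝ} (hl : 0 ≤ lam) {C : Finset (Clause k n)}
    (hC : C.Nonempty) (S : Set (Asg n)) (M : ℕ) : 1 ≤ Psi lam C S M := by
  rw [← EL_const hC M 1]
  exact EL_mono C M fun l => Real.one_le_exp (mul_nonneg hl (Nat.cast_nonneg _))

/-- the trivial bound (`om_le_sq`, `life_le`) -/
theorem Wt_le_trivial {k n : ℕ} {lam : ℝ} (hl : 0 ≤ lam) (C : Finset (Clause k n))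
    (S : Set (Asg n)) (M : ℕ) (A : Set (Asg n)) :
    Wt lam C S M A ≤ ((M : ℝ) + 1) ^ 2 * Psi lam C S M := by
  unfold Wt Psi
  rw [← EL_mul_left]
  refine EL_mono' C M fun l hlen _ => (om_le_sq hl _ _).trans ?_
  refine mul_le_mul_of_nonneg_right ?_ (Real.exp_pos _).le
  have h1 := life_le l S
  have h2 : life S l - life (S ∩ A) l ≤ M + 1 := by omega
  have h3 : ((life S l - life (S ∩ A) l : ℕ) : ℝ) ≤ (M : ℝ) + 1 := by exact_mod_cast h2
  exact pow_le_pow_left₀ (Nat.cast_nonneg _) h3 2

end Crest.Agent.R153
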