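import Crest.Agent.R153.Basic

/-! Counting clauses (task R153 Omega+Prob). -/

set_option autoImplicit false

namespace Crest.Agent.R153

open Crest.ProbabilityR.RandomSAT Finset

/-- injective maps `Fin k → Fin n` avoiding `X` are the embeddings `Fin k ↪ ↥Xᶜ`
(`Fintype.card_embedding_eq`) -/
theorem card_avoid (k : ℕ) {n : ℕ} (X : Finset (Fin n)) :
    (avoid k X).card = (n - X.card).descFactorial k * 2 ^ k := by
  have e : {c : Clause k n // ∀ i, c.1.1 i ∉ X} ≃
      (Fin k ↪ {x : Fin n // x ∉ X}) × (Fin k → Bool) :=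
    { toFun := fun c => (⟨fun i => ⟨c.1.1.1 i, c.2 i⟩,
        fun i j h => c.1.1.2 (congrArg Subtype.val h)⟩, c.1.2)
      invFun := fun p => ⟨(⟨fun i => (p.1 i).1, fun i j h => p.1.injective (Subtype.ext h)⟩, p.2),
        fun i => (p.1 i).2⟩
      left_inv := fun c => rfl
      right_inv := fun p => rfl }
  have h1 : (avoid k X).card = Fintype.card {c : Clause k n // ∀ i, c.1.1 i ∉ X} := by
    rw [Fintype.card_subtype]; rfl
  have h2 : Fintype.card {x : Fin n // x ∉ X} = n - X.card := by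
    rw [Fintype.card_subtype_compl]; simp
  rw [h1, Fintype.card_congr e, Fintype.card_prod, Fintype.card_embedding_eq, h2]
  simp

theorem avoid_nonempty {k n : ℕ} {X : Finset (Fin n)} (h : X.card + k ≤ n) :
    (avoid k X).Nonempty := by
  rw [← card_pos, card_avoid]
  exact Nat.mul_pos (Nat.descFactorial_pos.2 (by omega)) (by positivity)

theorem avoid_empty (k n : ℕ) : avoid k (∅ : Finset (Fin n)) = univ := by
  ext c; simp [avoid]

theorem avoid_anti (k : ℕ) {n : ℕ} {X X' : Finset (Fin n)} (h : X ⊆ X') :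
    avoid k X' ⊆ avoid k X := by
  intro c hc
  simp only [avoid, mem_filter, mem_univ, true_and] at hc ⊢
  exact fun i hi => hc i (h hi)

/-- with `N = n - |X| ≥ n/2`: the ratio of the cardinalities is `(N-k)/N ≥ 1 - 2k/n` -/
theorem card_avoid_insert {k n : ℕ} {X : Finset (Fin n)} {v : Fin n} (hv : v ∉ X)
    (hX : 2 * X.card ≤ n) (hn : 4 * k ≤ n) :
    (1 - 2 * (k : ℝ) / n) * (avoid k X).card ≤ (avoid k (insert v X)).card := by
  have hlt : X.card < n := by
    have := card_le_univ (insert v X)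
    rw [card_insert_of_notMem hv, Fintype.card_fin] at this
    omega
  rw [card_avoid, card_avoid, card_insert_of_notMem hv]
  obtain ⟨N, hN⟩ : ∃ N, n - X.card = N + 1 := ⟨n - X.card - 1, by omega⟩
  have hN' : n - (X.card + 1) = N := by omega
  rw [hN, hN']
  have h1 := Nat.succ_descFactorial N k
  have h2 : ((N : ℝ) + 1 - k) * ((N + 1).descFactorial k : ℝ) =
      ((N : ℝ) + 1) * (N.descFactorial k : ℝ) := by
    have h3 : ((N + 1 - k : ℕ) : ℝ) = (N : ℝ) + 1 - k := by
      rw [Nat.cast_sub (by omega)]; push_cast; ring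
    rw [← h3]
    exact_mod_cast h1
  have hn0 : (0 : ℝ) < n := by exact_mod_cast (by omega : 0 < n)
  have hnN : (n : ℝ) ≤ 2 * (N + 1) := by exact_mod_cast (by omega : n ≤ 2 * (N + 1))
  have hk0 : (0 : ℝ) ≤ k := Nat.cast_nonneg _
  have hN0 : (0 : ℝ) < N + 1 := by positivity
  have h4 : ((N : ℝ) + 1) * (1 - 2 * (k : ℝ) / n) ≤ (N : ℝ) + 1 - k := by
    have : (k : ℝ) ≤ ((N : ℝ) + 1) * (2 * (k : ℝ) / n) := by
      rw [← mul_div_assoc, le_div_iff₀ hn0]
      nlinarith
    linarith
  have h5 : (1 - 2 * (k : ℝ) / n) * ((N + 1).descFactorial k : ℝ) ≤ (N.descFactorial k : ℝ) := by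
    refine le_of_mul_le_mul_left ?_ hN0
    rw [← h2, ← mul_assoc]
    exact mul_le_mul_of_nonneg_right h4 (Nat.cast_nonneg _)
  push_cast
  rw [← mul_assoc]
  exact mul_le_mul_of_nonneg_right h5 (by positivity)

theorem card_sdiff_avoid_ge (k : ℕ) {n : ℕ} {X : Finset (Fin n)} {v : Fin n} (hv : v ∉ X)
    (hX : 2 * (X.card + 1) ≤ n) (hn : 4 * (k + 1) ≤ n) :
    ((k + 1 : ℕ) : ℝ) * ((n : ℝ) / 4) ^ k ≤
      ((avoid (k + 1) X \ avoid (k + 1) (insert v X)).card : ℝ) := by
  rw [card_sdiff_of_subset (avoid_anti _ (subset_insert v X)), card_avoid, card_avoid,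
    card_insert_of_notMem hv]
  obtain ⟨N, hN⟩ : ∃ N, n - X.card = N + 1 := ⟨n - X.card - 1, by omega⟩
  have hN' : n - (X.card + 1) = N := by omega
  rw [hN, hN', Nat.succ_descFactorial_succ, Nat.descFactorial_succ, ← Nat.sub_mul, ← Nat.sub_mul]
  have h1 : N + 1 - (N - k) = k + 1 := by omega
  rw [h1]
  have h2 : ((n : ℝ) / 4) ^ k ≤ (N.descFactorial k : ℝ) := by
    have h3 : ((N + 1 - k : ℕ) : ℝ) ^ k ≤ (N.descFactorial k : ℝ) := by
      exact_mod_cast Nat.pow_sub_le_descFactorial N k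
    refine le_trans (pow_le_pow_left₀ (by positivity) ?_ k) h3
    have h4 : n ≤ 4 * (N + 1 - k) := by omega
    have h5 : (n : ℝ) ≤ 4 * ((N + 1 - k : ℕ) : ℝ) := by exact_mod_cast h4
    linarith
  have h6 : (1 : ℝ) ≤ 2 ^ (k + 1) := one_le_pow₀ (by norm_num)
  rw [Nat.cast_mul, Nat.cast_mul, Nat.cast_pow, Nat.cast_ofNat]
  calc ((k + 1 : ℕ) : ℝ) * ((n : ℝ) / 4) ^ k ≤ ((k + 1 : ℕ) : ℝ) * (N.descFactorial k : ℝ) := by
        gcongr
    _ ≤ _ := le_mul_of_one_le_right (by positivity) h6

open Classical in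
theorem card_bad_le (k : ℕ) {n : ℕ} (T : Finset (Clause (k + 1) n)) (v : Fin n)
    (F : Finset (Fin n × Bool)) (hT : ∀ c ∈ T, ∃ i, c.1.1 i = v) :
    ((T.filter fun c => ∀ i, c.1.1 i ≠ v → (c.1.1 i, c.2 i) ∈ F).card : ℝ) ≤
      ((k + 1 : ℕ) : ℝ) * (2 * (F.card : ℝ) ^ k) := by
  have h : (T.filter fun c => ∀ i, c.1.1 i ≠ v → (c.1.1 i, c.2 i) ∈ F).card ≤
      (k + 1) * (2 * F.card ^ k) := by
    have h1 : (T.filter fun c => ∀ i, c.1.1 i ≠ v → (c.1.1 i, c.2 i) ∈ F).card ≤
        ((univ : Finset (Fin (k + 1))).biUnion fun i₀ => Fintype.piFinset fun i : Fin (k + 1) =>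
          if i = i₀ then ({v} : Finset (Fin n)) ×ˢ (univ : Finset Bool) else F).card := by
      refine card_le_card_of_injOn (fun c i => (c.1.1 i, c.2 i)) ?_ ?_
      · intro c hc
        simp only [coe_filter, Set.mem_ofPred_eq] at hc
        obtain ⟨i₀, hi₀⟩ := hT c hc.1
        simp only [coe_biUnion, coe_univ, Set.mem_univ, Set.iUnion_true, Set.mem_iUnion,
          mem_coe, Fintype.mem_piFinset]
        refine ⟨i₀, fun i => ?_⟩
        split_ifs with h
        · subst h; simp [hi₀]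
        · exact hc.2 i fun h' => h (c.1.2 (h'.trans hi₀.symm))
      · intro c _ c' _ h
        refine Prod.ext (Subtype.ext (funext fun i => ?_)) (funext fun i => ?_)
        · exact congrArg Prod.fst (congrFun h i)
        · exact congrArg Prod.snd (congrFun h i)
    refine h1.trans (card_biUnion_le.trans (le_of_eq ?_))
    have h2 : ∀ i₀ : Fin (k + 1), (Fintype.piFinset fun i : Fin (k + 1) =>
          if i = i₀ then ({v} : Finset (Fin n)) ×ˢ (univ : Finset Bool) else F).card =
          2 * F.card ^ k := by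
      intro i₀
      rw [Fintype.card_piFinset, ← Finset.mul_prod_erase univ _ (mem_univ i₀)]
      rw [prod_congr rfl (g := fun _ => F.card) fun i hi => by
        rw [if_neg (ne_of_mem_erase hi)]]
      simp
    rw [sum_congr rfl fun i _ => h2 i]
    simp
  exact_mod_cast h

open Classical in
/-- A uniform clause that contains `v` and avoids `X` (`v ∉ X`): the probability that all literals
on other variables lie in `F` is at most `C (|F|/n)²`.  Total count
`= |avoid X| - |avoid (insert v X)| = k (N-1)^{\underline{k-1}} 2^k ≥ k (n/4)^{k-1} 2^k`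
(`N = n - |X|`); a bad clause is determined by the position `i₀` of `v`, two literals of `F` (at two
fixed positions `≠ i₀`, chosen as a function of `i₀`), the other `k-3` variables and the signs:
at most `k |F|² n^{k-3} 2^k`. -/
theorem prob_two (k : ℕ) (hk : 3 ≤ k) : ∃ C : ℝ, 0 ≤ C ∧ ∀ (n : ℕ) (X : Finset (Fin n)) (v : Fin n)
    (F : Finset (Fin n × Bool)), v ∉ X → 2 * (X.card + 1) ≤ n → 4 * k ≤ n →
    av (avoid k X \ avoid k (insert v X))
      (fun c => if ∀ i, c.1.1 i ≠ v → (c.1.1 i, c.2 i) ∈ F then 1 else 0) ≤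
      C * ((F.card : ℝ) / n) ^ 2 := by
  obtain ⟨m, rfl⟩ : ∃ m, k = m + 3 := ⟨k - 3, by omega⟩
  refine ⟨2 * 2 ^ m * 4 ^ (m + 2), by positivity, ?_⟩
  intro n X v F hv hX hn
  have hn0 : (0 : ℝ) < n := by exact_mod_cast (by omega : 0 < n)
  have hT := card_sdiff_avoid_ge (m + 2) hv hX hn
  have hB := card_bad_le (m + 2) (avoid (m + 3) X \ avoid (m + 3) (insert v X)) v F (by
    intro c hc
    simp only [avoid, mem_sdiff, mem_filter, mem_univ, true_and, mem_insert, not_forall,
      not_not] at hc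
    obtain ⟨h1, i, h2 | h2⟩ := hc
    · exact ⟨i, h2⟩
    · exact absurd h2 (h1 i))
  have hF : (F.card : ℝ) ≤ 2 * n := by
    have := card_le_univ F
    rw [Fintype.card_prod, Fintype.card_fin, Fintype.card_bool] at this
    exact_mod_cast (by omega : F.card ≤ 2 * n)
  have hF0 : (0 : ℝ) ≤ F.card := Nat.cast_nonneg _
  unfold av
  rw [sum_boole]
  have hTpos : (0 : ℝ) < ((avoid (m + 3) X \ avoid (m + 3) (insert v X)).card : ℝ) :=
    lt_of_lt_of_le (by positivity) hT
  rw [div_le_iff₀ hTpos]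
  refine hB.trans (le_trans ?_ (mul_le_mul_of_nonneg_left hT (by positivity)))
  have h1 : (F.card : ℝ) ^ (m + 2) ≤ (2 * n) ^ m * (F.card : ℝ) ^ 2 := by
    rw [pow_add]
    exact mul_le_mul_of_nonneg_right (pow_le_pow_left₀ hF0 hF m) (by positivity)
  calc ((m + 2 + 1 : ℕ) : ℝ) * (2 * (F.card : ℝ) ^ (m + 2))
      ≤ ((m + 2 + 1 : ℕ) : ℝ) * (2 * ((2 * n) ^ m * (F.card : ℝ) ^ 2)) := by gcongr
    _ = 2 * 2 ^ m * 4 ^ (m + 2) * ((F.card : ℝ) / n) ^ 2 *
          (((m + 2 + 1 : ℕ) : ℝ) * ((n : ℝ) / 4) ^ (m + 2)) := by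
        rw [mul_pow, div_pow, div_pow, pow_add (n : ℝ) m 2]
        field_simp

open Classical in
/-- `F` is a set of literals on distinct variables outside `X`, `|F| ≥ y n ≥ 2k`.  Every injective
map `Fin k → F` gives a clause, so at least `(|F|-k)^k ≥ (y n/2)^k` of the at most `(2n)^k` clauses
have all literals in `F`. -/
theorem prob_kill {k n : ℕ} (X : Finset (Fin n)) (F : Finset (Fin n × Bool)) (y : ℝ)
    (hn : 0 < n) (hy : 0 ≤ y) (hF : ∀ a ∈ F, a.1 ∉ X) (hinj : Set.InjOn Prod.fst (F : Set (Fin n × Bool)))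
    (h1 : y * n ≤ F.card) (h2 : 2 * (k : ℝ) ≤ y * n) :
    (y / 4) ^ k ≤ av (avoid k X) (fun c => if ∀ i, (c.1.1 i, c.2 i) ∈ F then 1 else 0) := by
  set G := (avoid k X).filter (fun c => ∀ i, (c.1.1 i, c.2 i) ∈ F) with hG
  have hk0 : (0 : ℝ) ≤ k := Nat.cast_nonneg _
  have hkF : k ≤ F.card := by
    have : (k : ℝ) ≤ F.card := by linarith
    exact_mod_cast this
  have hGc : F.card.descFactorial k ≤ G.card := by
    have h3 : Fintype.card (Fin k ↪ F) = F.card.descFactorial k := by
      rw [Fintype.card_embedding_eq]; simp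
    rw [← h3, ← card_univ]
    refine card_le_card_of_injOn (fun e : Fin k ↪ F => ((⟨fun i => (e i).1.1, fun i j h =>
      e.injective (Subtype.ext (hinj (e i).2 (e j).2 h))⟩, fun i => (e i).1.2) : Clause k n))
      ?_ ?_
    · intro e _
      simp only [hG, avoid, coe_filter, mem_filter, mem_univ, true_and, Set.mem_ofPred_eq]
      exact ⟨fun i => hF _ (e i).2, fun i => (e i).2⟩
    · intro e _ e' _ h
      ext i
      · exact congrArg Fin.val (congrFun (congrArg (fun c : Clause k n => c.1.1) h) i)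
      · exact congrFun (congrArg (fun c : Clause k n => c.2) h) i
  have hGpos : 0 < G.card := lt_of_lt_of_le (Nat.descFactorial_pos.2 hkF) hGc
  have hApos : (0 : ℝ) < (avoid k X).card := by
    exact_mod_cast lt_of_lt_of_le hGpos (card_filter_le _ _)
  have hA : ((avoid k X).card : ℝ) ≤ (2 * n) ^ k := by
    have h3 : (avoid k X).card ≤ (2 * n) ^ k := by
      rw [card_avoid, mul_pow, mul_comm]
      refine Nat.mul_le_mul_left _ ((Nat.descFactorial_le_pow _ _).trans ?_)
      exact Nat.pow_le_pow_left (Nat.sub_le _ _) k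
    exact_mod_cast h3
  have hlow : (y * n / 2) ^ k ≤ (G.card : ℝ) := by
    have h3 : ((F.card + 1 - k : ℕ) : ℝ) ^ k ≤ (G.card : ℝ) := by
      exact_mod_cast (Nat.pow_sub_le_descFactorial F.card k).trans hGc
    refine le_trans (pow_le_pow_left₀ (by positivity) ?_ k) h3
    rw [Nat.cast_sub (by omega)]
    push_cast
    linarith
  unfold av
  rw [sum_boole, le_div_iff₀ hApos]
  calc (y / 4) ^ k * ((avoid k X).card : ℝ) ≤ (y / 4) ^ k * (2 * n) ^ k :=
        mul_le_mul_of_nonneg_left hA (by positivity)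
    _ = (y * n / 2) ^ k := by rw [← mul_pow]; congr 1; ring
    _ ≤ _ := hlow

theorem av_fiber {α β : Type} [Fintype α] [Fintype β] [DecidableEq β]
    (hne : (univ : Finset α).Nonempty) (g : α → β)
    (h : ∀ b b', (univ.filter fun a => g a = b).card = (univ.filter fun a => g a = b').card)
    (f : β → ℝ) : av univ (fun a => f (g a)) = av univ f := by
  obtain ⟨a₀, -⟩ := hne
  set m := (univ.filter fun a => g a = g a₀).card with hm
  have hm0 : 0 < m := card_pos.2 ⟨a₀, by simp⟩
  have key : ∀ f : β → ℝ, ∑ a, f (g a) = m * ∑ b, f b := by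
    intro f
    rw [← Finset.sum_fiberwise univ g, mul_sum]
    refine sum_congr rfl fun b _ => ?_
    rw [sum_congr rfl (g := fun _ => f b) fun a ha => by rw [(mem_filter.1 ha).2], sum_const,
      nsmul_eq_mul, h b (g a₀)]
  have h1 := key fun _ => 1
  simp only [sum_const, nsmul_eq_mul, mul_one] at h1
  unfold av
  rw [key f, h1]
  exact mul_div_mul_left _ _ (by exact_mod_cast hm0.ne')

/-- relabel the variables and the signs -/
def clauseEquiv (k : ℕ) {n : ℕ} (p : Equiv.Perm (Fin n)) (t : Equiv.Perm Bool) :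
    Clause k n ≃ Clause k n where
  toFun c := (⟨fun i => p (c.1.1 i), p.injective.comp c.1.2⟩, fun i => t (c.2 i))
  invFun c := (⟨fun i => p.symm (c.1.1 i), p.symm.injective.comp c.1.2⟩, fun i => t.symm (c.2 i))
  left_inv c := by simp
  right_inv c := by simp

/-- the literal at position `i` of a uniform clause is uniform (all fibres have the same size:
compose with a transposition of the variables, flip a sign) -/
theorem av_literal {k n : ℕ} (hn : k ≤ n) (i : Fin k) (f : Fin n × Bool → ℝ) :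
    av (univ : Finset (Clause k n)) (fun c => f (c.1.1 i, c.2 i)) = av univ f := by
  have hne : (univ : Finset (Clause k n)).Nonempty := by
    rw [← avoid_empty]; exact avoid_nonempty (by simpa using hn)
  refine av_fiber hne (fun c : Clause k n => (c.1.1 i, c.2 i)) ?_ f
  rintro ⟨a, b⟩ ⟨a', b'⟩
  refine card_equiv (clauseEquiv k (Equiv.swap a a') (Equiv.swap b b')) fun c => ?_
  simp only [mem_filter, mem_univ, true_and, Prod.mk.injEq, clauseEquiv, Equiv.coe_fn_mk]
  rw [Equiv.swap_apply_eq_iff, Equiv.swap_apply_eq_iff, Equiv.swap_apply_right,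
    Equiv.swap_apply_right]

end Crest.Agent.R153
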